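import Mathlib

namespace Vale.Agent.P063

open Finset

variable {ι : Type*} [Fintype ι] [DecidableEq ι]

/-- one-bit weight -/
def w1 (p : ℝ) (b : Bool) : ℝ := if b = true then p else 1 - p

/-- product weight -/
noncomputable def wt (p : ℝ) (x : ι → Bool) : ℝ := ∏ i, w1 p (x i)

/-- expectation -/
noncomputable def Ex (p : ℝ) (g : (ι → Bool) → ℝ) : ℝ := ∑ x, wt p x * g x

/-- centred bit -/
def ps1 (p : ℝ) (b : Bool) : ℝ := (if b = true then 1 else 0) - p

/-- unnormalised character -/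
noncomputable def psi (p : ℝ) (S : Finset ι) (x : ι → Bool) : ℝ := ∏ i ∈ S, ps1 p (x i)

@[simp] lemma w1_true (p : ℝ) : w1 p true = p := by simp [w1]
@[simp] lemma w1_false (p : ℝ) : w1 p false = 1 - p := by simp [w1]
@[simp] lemma ps1_true (p : ℝ) : ps1 p true = 1 - p := by simp [ps1]
@[simp] lemma ps1_false (p : ℝ) : ps1 p false = -p := by simp [ps1]

lemma w1_nonneg {p : ℝ} (h0 : 0 ≤ p) (h1 : p ≤ 1) (b : Bool) : 0 ≤ w1 p b := by
  cases b <;> simp <;> linarith

omit [DecidableEq ι] in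
lemma wt_nonneg {p : ℝ} (h0 : 0 ≤ p) (h1 : p ≤ 1) (x : ι → Bool) : 0 ≤ wt p x :=
  Finset.prod_nonneg fun i _ => w1_nonneg h0 h1 (x i)

lemma Ex_prod (p : ℝ) (h : ι → Bool → ℝ) :
    Ex p (fun x => ∏ i, h i (x i)) = ∏ i, (p * h i true + (1 - p) * h i false) := by
  unfold Ex wt
  have h1 : ∀ i, p * h i true + (1 - p) * h i false = ∑ b : Bool, w1 p b * h i b := by
    intro i; simp
  simp_rw [h1]
  rw [Fintype.prod_sum]
  refine Finset.sum_congr rfl fun x _ => ?_
  rw [← Finset.prod_mul_distrib]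

lemma Ex_one (p : ℝ) : Ex p (fun _ : ι → Bool => (1 : ℝ)) = 1 := by
  have := Ex_prod (ι := ι) p (fun _ _ => 1)
  simpa using this

lemma Ex_add (p : ℝ) (f g : (ι → Bool) → ℝ) :
    Ex p (fun x => f x + g x) = Ex p f + Ex p g := by
  unfold Ex; rw [← Finset.sum_add_distrib]; refine Finset.sum_congr rfl fun x _ => by ring

lemma Ex_sub (p : ℝ) (f g : (ι → Bool) → ℝ) :
    Ex p (fun x => f x - g x) = Ex p f - Ex p g := by
  unfold Ex; rw [← Finset.sum_sub_distrib]; refine Finset.sum_congr rfl fun x _ => by ring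

lemma Ex_mul_left (p c : ℝ) (f : (ι → Bool) → ℝ) :
    Ex p (fun x => c * f x) = c * Ex p f := by
  unfold Ex; rw [Finset.mul_sum]; refine Finset.sum_congr rfl fun x _ => by ring

lemma Ex_const (p c : ℝ) : Ex p (fun _ : ι → Bool => c) = c := by
  have := Ex_mul_left (ι := ι) p c (fun _ => 1)
  simpa [Ex_one] using this

lemma Ex_sum {α : Type*} (p : ℝ) (A : Finset α) (f : α → (ι → Bool) → ℝ) :
    Ex p (fun x => ∑ a ∈ A, f a x) = ∑ a ∈ A, Ex p (f a) := by
  unfold Ex
  simp_rw [Finset.mul_sum]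
  exact Finset.sum_comm

lemma Ex_mono {p : ℝ} (h0 : 0 ≤ p) (h1 : p ≤ 1) {f g : (ι → Bool) → ℝ} (h : ∀ x, f x ≤ g x) :
    Ex p f ≤ Ex p g :=
  Finset.sum_le_sum fun x _ => mul_le_mul_of_nonneg_left (h x) (wt_nonneg h0 h1 x)

lemma Ex_nonneg {p : ℝ} (h0 : 0 ≤ p) (h1 : p ≤ 1) {f : (ι → Bool) → ℝ} (h : ∀ x, 0 ≤ f x) :
    0 ≤ Ex p f :=
  Finset.sum_nonneg fun x _ => mul_nonneg (wt_nonneg h0 h1 x) (h x)

lemma Ex_congr (p : ℝ) {f g : (ι → Bool) → ℝ} (h : ∀ x, f x = g x) : Ex p f = Ex p g := by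
  rw [show f = g from funext h]

lemma Ex_cs {p : ℝ} (h0 : 0 ≤ p) (h1 : p ≤ 1) (f g : (ι → Bool) → ℝ) :
    (Ex p (fun x => f x * g x)) ^ 2 ≤ Ex p (fun x => f x ^ 2) * Ex p (fun x => g x ^ 2) := by
  unfold Ex
  refine Finset.sum_sq_le_sum_mul_sum_of_sq_le_mul _ (fun x _ => ?_) (fun x _ => ?_)
    (fun x _ => ?_)
  · exact mul_nonneg (wt_nonneg h0 h1 x) (sq_nonneg _)
  · exact mul_nonneg (wt_nonneg h0 h1 x) (sq_nonneg _)
  · exact le_of_eq (by ring)

/-- weight without the coordinate `e` -/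
noncomputable def wt' (p : ℝ) (e : ι) (x : ι → Bool) : ℝ := ∏ i ∈ univ.erase e, w1 p (x i)

lemma wt_eq (p : ℝ) (e : ι) (x : ι → Bool) : wt p x = w1 p (x e) * wt' p e x := by
  unfold wt wt'
  rw [Finset.mul_prod_erase univ (fun i => w1 p (x i)) (mem_univ e)]

lemma wt'_update (p : ℝ) (e : ι) (x : ι → Bool) (b : Bool) :
    wt' p e (Function.update x e b) = wt' p e x := by
  unfold wt'
  refine Finset.prod_congr rfl fun i hi => ?_
  rw [Function.update_of_ne (Finset.ne_of_mem_erase hi)]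

lemma sum_split (e : ι) (F : (ι → Bool) → ℝ) :
    2 * ∑ x, F x = ∑ x, (F (Function.update x e true) + F (Function.update x e false)) := by
  have hinv : Function.Involutive (fun x : ι → Bool => Function.update x e (!x e)) := by
    intro x; simp
  have h1 : ∑ x, F x = ∑ x : ι → Bool, F (Function.update x e (!x e)) :=
    (Equiv.sum_comp hinv.toPerm F).symm
  rw [two_mul]
  nth_rewrite 2 [h1]
  rw [← Finset.sum_add_distrib]
  refine Finset.sum_congr rfl fun x _ => ?_
  cases hx : x e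
  · have : Function.update x e false = x := by rw [← hx]; simp
    rw [this]; simp [add_comm]
  · have : Function.update x e true = x := by rw [← hx]; simp
    rw [this]; simp

lemma Ex_split (p : ℝ) (e : ι) (G : (ι → Bool) → ℝ) :
    Ex p G = Ex p (fun x => p * G (Function.update x e true)
      + (1 - p) * G (Function.update x e false)) := by
  have h1 := sum_split e (fun x => wt p x * G x)
  have h2 := sum_split e (fun x => wt p x * (p * G (Function.update x e true)
      + (1 - p) * G (Function.update x e false)))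
  unfold Ex
  have : (2 : ℝ) ≠ 0 := two_ne_zero
  refine mul_left_cancel₀ this ?_
  rw [h1, h2]
  refine Finset.sum_congr rfl fun x _ => ?_
  simp only [wt_eq p e, wt'_update, Function.update_self, Function.update_idem, w1_true, w1_false]
  ring

lemma psi_orth (p : ℝ) (S T : Finset ι) :
    Ex p (fun x => psi p S x * psi p T x) = if S = T then (p * (1 - p)) ^ S.card else 0 := by
  have h1 : ∀ x : ι → Bool, psi p S x * psi p T x =
      ∏ i, ((if i ∈ S then ps1 p (x i) else 1) * (if i ∈ T then ps1 p (x i) else 1)) := by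
    intro x
    rw [Finset.prod_mul_distrib]
    unfold psi
    rw [Finset.prod_ite_mem, Finset.prod_ite_mem]; simp
  rw [Ex_congr p h1, Ex_prod p (fun i b => (if i ∈ S then ps1 p b else 1) *
    (if i ∈ T then ps1 p b else 1))]
  split_ifs with h
  · subst h
    have : ∀ i, p * ((if i ∈ S then ps1 p true else 1) * (if i ∈ S then ps1 p true else 1)) +
        (1 - p) * ((if i ∈ S then ps1 p false else 1) * (if i ∈ S then ps1 p false else 1)) =
        if i ∈ S then p * (1 - p) else 1 := by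
      intro i; split_ifs <;> simp <;> ring
    simp_rw [this]
    rw [Finset.prod_ite_mem]; simp
  · have : ∃ i, ¬ (i ∈ S ↔ i ∈ T) := by
      by_contra hc
      push Not at hc
      exact h (Finset.ext hc)
    obtain ⟨i, hi⟩ := this
    refine Finset.prod_eq_zero (mem_univ i) ?_
    by_cases h1 : i ∈ S <;> by_cases h2 : i ∈ T <;> simp_all <;> ring

/-- bilinear form of families of characters -/
lemma Ex_bilin {α : Type*} (p : ℝ) (A : Finset α) (s : α → Finset ι)
    (hs : ∀ i ∈ A, ∀ j ∈ A, s i = s j → i = j) (a b : α → ℝ) :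
    Ex p (fun x => (∑ i ∈ A, a i * psi p (s i) x) * (∑ i ∈ A, b i * psi p (s i) x)) =
      ∑ i ∈ A, a i * b i * (p * (1 - p)) ^ (s i).card := by
  classical
  have h1 : ∀ x : ι → Bool, (∑ i ∈ A, a i * psi p (s i) x) * (∑ i ∈ A, b i * psi p (s i) x) =
      ∑ i ∈ A, ∑ j ∈ A, (a i * b j) * (psi p (s i) x * psi p (s j) x) := by
    intro x
    rw [Finset.sum_mul_sum]
    refine Finset.sum_congr rfl fun i _ => Finset.sum_congr rfl fun j _ => by ring
  rw [Ex_congr p h1, Ex_sum]
  refine Finset.sum_congr rfl fun i hi => ?_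
  rw [Ex_sum]
  simp_rw [Ex_mul_left, psi_orth]
  rw [Finset.sum_eq_single i]
  · simp
  · intro j hj hji
    rw [if_neg (fun h => hji (hs i hi j hj h).symm)]; simp
  · intro h; exact absurd hi h

lemma Ex_quad {α : Type*} (p : ℝ) (A : Finset α) (s : α → Finset ι)
    (hs : ∀ i ∈ A, ∀ j ∈ A, s i = s j → i = j) (a : α → ℝ) :
    Ex p (fun x => (∑ i ∈ A, a i * psi p (s i) x) ^ 2) =
      ∑ i ∈ A, a i ^ 2 * (p * (1 - p)) ^ (s i).card := by
  have := Ex_bilin p A s hs a a
  simp_rw [sq]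
  exact this

/-- function with given coefficients -/
noncomputable def Fc (p : ℝ) (c : Finset ι → ℝ) (x : ι → Bool) : ℝ := ∑ S, c S * psi p S x

lemma exists_coef (p : ℝ) (g : (ι → Bool) → ℝ) : ∃ c : Finset ι → ℝ, g = Fc p c := by
  refine ⟨fun S => ∑ y : ι → Bool, g y * ((∏ i ∈ S, (if y i = true then (1 : ℝ) else -1)) *
    ∏ i ∈ univ \ S, w1 p (y i)), ?_⟩
  funext x
  unfold Fc
  simp_rw [Finset.sum_mul]
  rw [Finset.sum_comm]
  have h1 : ∀ y : ι → Bool, ∑ S : Finset ι, g y * ((∏ i ∈ S, (if y i = true then (1 : ℝ) else -1)) *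
      ∏ i ∈ univ \ S, w1 p (y i)) * psi p S x = g y * if y = x then 1 else 0 := by
    intro y
    have h2 := Finset.prod_add (fun i => (if y i = true then (1 : ℝ) else -1) * ps1 p (x i))
      (fun i => w1 p (y i)) univ
    rw [Finset.powerset_univ] at h2
    have h3 : ∏ i, ((if y i = true then (1 : ℝ) else -1) * ps1 p (x i) + w1 p (y i)) =
        if y = x then 1 else 0 := by
      split_ifs with h
      · subst h
        refine Finset.prod_eq_one fun i _ => ?_
        cases y i <;> simp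
      · obtain ⟨i, hi⟩ := Function.ne_iff.mp h
        refine Finset.prod_eq_zero (mem_univ i) ?_
        revert hi
        cases y i <;> cases x i <;> simp
    rw [← h3, h2, Finset.mul_sum]
    refine Finset.sum_congr rfl fun S _ => ?_
    rw [Finset.prod_mul_distrib]
    unfold psi
    ring
  simp_rw [h1]
  simp

omit [Fintype ι] in
lemma psi_update_of_notMem (p : ℝ) {S : Finset ι} {e : ι} (he : e ∉ S) (x : ι → Bool) (b : Bool) :
    psi p S (Function.update x e b) = psi p S x := by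
  unfold psi
  refine Finset.prod_congr rfl fun i hi => ?_
  have hne : i ≠ e := fun h => he (h ▸ hi)
  rw [Function.update_of_ne hne]

omit [Fintype ι] in
lemma psi_insert (p : ℝ) {S : Finset ι} {e : ι} (he : e ∉ S) (x : ι → Bool) :
    psi p (insert e S) x = ps1 p (x e) * psi p S x := by
  unfold psi
  rw [Finset.prod_insert he]

lemma one_bit {p : ℝ} (h0 : 0 ≤ p) (h1 : p ≤ 1) (A B : ℝ) :
    p * (A + (1 - p) * B) ^ 4 + (1 - p) * (A + -p * B) ^ 4 ≤ (A ^ 2 + B ^ 2) ^ 2 := by
  have hl : p * (1 - p) ≤ 1 / 4 := by nlinarith [sq_nonneg (p - 1 / 2)]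
  have hl0 : 0 ≤ p * (1 - p) := mul_nonneg h0 (by linarith)
  set l := p * (1 - p) with hldef
  have e1 : (A ^ 2 + B ^ 2) ^ 2 - (p * (A + (1 - p) * B) ^ 4 + (1 - p) * (A + -p * B) ^ 4) =
      B ^ 2 * ((2 - 6 * l) * A ^ 2 - 4 * (l * (1 - 2 * p)) * (A * B)
        + (1 - l * (1 - 3 * l)) * B ^ 2) := by
    rw [hldef]; ring
  have hk : |l * (1 - 2 * p)| ≤ 1 / 4 := by
    rw [abs_mul, abs_of_nonneg hl0]
    have : |1 - 2 * p| ≤ 1 := abs_le.mpr ⟨by linarith, by linarith⟩
    nlinarith [abs_nonneg (1 - 2 * p)]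
  set k := l * (1 - 2 * p) with hkdef
  have hk' := abs_le.mp hk
  have e2 : 0 ≤ (2 - 6 * l) * A ^ 2 - 4 * k * (A * B) + (1 - l * (1 - 3 * l)) * B ^ 2 := by
    have a1 : (1 / 2) * A ^ 2 ≤ (2 - 6 * l) * A ^ 2 :=
      mul_le_mul_of_nonneg_right (by linarith) (sq_nonneg _)
    have a2 : (1 / 2) * B ^ 2 ≤ (1 - l * (1 - 3 * l)) * B ^ 2 :=
      mul_le_mul_of_nonneg_right (by nlinarith) (sq_nonneg _)
    have a3 : 4 * k * (A * B) ≤ (1 / 2) * A ^ 2 + (1 / 2) * B ^ 2 := by
      nlinarith [mul_nonneg (show 0 ≤ 1 / 4 - k by linarith) (sq_nonneg (A + B)),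
        mul_nonneg (show 0 ≤ 1 / 4 + k by linarith) (sq_nonneg (A - B))]
    linarith
  have := mul_nonneg (sq_nonneg B) e2
  linarith

lemma hyper_aux {p : ℝ} (h0 : 0 ≤ p) (h1 : p ≤ 1) (K : Finset ι) :
    ∀ c : Finset ι → ℝ, Ex p (fun x => (∑ S ∈ K.powerset, c S * psi p S x) ^ 4) ≤
      (∑ S ∈ K.powerset, c S ^ 2) ^ 2 := by
  induction K using Finset.induction_on with
  | empty =>
    intro c
    simp only [powerset_empty, sum_singleton, psi, prod_empty, mul_one]
    rw [Ex_const]; exact le_of_eq (by ring)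
  | insert e K he ih =>
    intro c
    set A : (ι → Bool) → ℝ := fun x => ∑ S ∈ K.powerset, c S * psi p S x with hA
    set B : (ι → Bool) → ℝ := fun x => ∑ S ∈ K.powerset, c (insert e S) * psi p S x with hB
    have hne : ∀ S ∈ K.powerset, e ∉ S := fun S hS h => he (mem_powerset.mp hS h)
    have hAB : ∀ x, ∑ S ∈ (insert e K).powerset, c S * psi p S x = A x + ps1 p (x e) * B x := by
      intro x
      rw [Finset.sum_powerset_insert he, hA, hB]
      simp only
      rw [Finset.mul_sum]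
      congr 1
      refine Finset.sum_congr rfl fun S hS => ?_
      rw [psi_insert p (hne S hS)]; ring
    have hAu : ∀ x b, A (Function.update x e b) = A x := by
      intro x b
      simp only [hA]
      exact Finset.sum_congr rfl fun S hS => by rw [psi_update_of_notMem p (hne S hS)]
    have hBu : ∀ x b, B (Function.update x e b) = B x := by
      intro x b
      simp only [hB]
      exact Finset.sum_congr rfl fun S hS => by rw [psi_update_of_notMem p (hne S hS)]
    have iA := ih c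
    have iB := ih (fun S => c (insert e S))
    rw [Finset.sum_powerset_insert he]
    set a := ∑ S ∈ K.powerset, c S ^ 2 with ha
    set b := ∑ S ∈ K.powerset, c (insert e S) ^ 2 with hb
    have ha0 : 0 ≤ a := Finset.sum_nonneg fun _ _ => sq_nonneg _
    have hb0 : 0 ≤ b := Finset.sum_nonneg fun _ _ => sq_nonneg _
    simp_rw [hAB]
    rw [Ex_split p e]
    simp only [hAu, hBu, Function.update_self, ps1_true, ps1_false]
    have h2 : Ex p (fun x => p * (A x + (1 - p) * B x) ^ 4 + (1 - p) * (A x + -p * B x) ^ 4) ≤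
        Ex p (fun x => A x ^ 4 + (2 * (A x ^ 2 * B x ^ 2) + B x ^ 4)) :=
      Ex_mono h0 h1 fun x => (one_bit h0 h1 (A x) (B x)).trans (le_of_eq (by ring))
    have h2' : Ex p (fun x => A x ^ 4 + (2 * (A x ^ 2 * B x ^ 2) + B x ^ 4)) =
        Ex p (fun x => A x ^ 4) + (2 * Ex p (fun x => A x ^ 2 * B x ^ 2)
          + Ex p (fun x => B x ^ 4)) := by
      rw [Ex_add, Ex_add, Ex_mul_left]
    rw [h2'] at h2
    have iA' : Ex p (fun x => A x ^ 4) ≤ a ^ 2 := iA
    have iB' : Ex p (fun x => B x ^ 4) ≤ b ^ 2 := iB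
    have h3 := Ex_cs h0 h1 (fun x => A x ^ 2) (fun x => B x ^ 2)
    have e4 : ∀ u : ℝ, (u ^ 2) ^ 2 = u ^ 4 := fun u => by ring
    simp only [e4] at h3
    have hA0 : 0 ≤ Ex p (fun x => A x ^ 4) := Ex_nonneg h0 h1 fun x => by positivity
    have hB0 : 0 ≤ Ex p (fun x => B x ^ 4) := Ex_nonneg h0 h1 fun x => by positivity
    have h4 : Ex p (fun x => A x ^ 2 * B x ^ 2) ≤ a * b := by
      refine abs_le_of_sq_le_sq' ?_ (mul_nonneg ha0 hb0) |>.2
      calc _ ≤ _ := h3
        _ ≤ a ^ 2 * b ^ 2 := mul_le_mul iA iB hB0 (sq_nonneg _)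
        _ = (a * b) ^ 2 := by ring
    calc _ ≤ _ := h2
      _ ≤ a ^ 2 + (2 * (a * b) + b ^ 2) := by linarith
      _ = (a + b) ^ 2 := by ring

lemma hyper {p : ℝ} (h0 : 0 ≤ p) (h1 : p ≤ 1) (c : Finset ι → ℝ) :
    Ex p (fun x => (Fc p c x) ^ 4) ≤ (∑ S, c S ^ 2) ^ 2 := by
  have := hyper_aux h0 h1 univ c
  rwa [Finset.powerset_univ] at this

end Vale.Agent.P063
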