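import Mathlib

namespace Vale.Agent.P063

/-- The possible edges of an `r`-uniform hypergraph on the vertex set `Fin n`. -/
abbrev Edge (n r : ℕ) : Type := {s : Finset (Fin n) // s.card = r}

/-- The image of an edge under a permutation of the vertices. -/
def edgeMap {n r : ℕ} (σ : Equiv.Perm (Fin n)) (e : Edge n r) : Edge n r :=
  ⟨e.1.map σ.toEmbedding, by rw [Finset.card_map]; exact e.2⟩

/-- `P` is a nontrivial increasing `r`-uniform hypergraph property on `n` vertices. -/
def IsIncProperty {n r : ℕ} (P : Set (Edge n r → Bool)) : Prop :=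
  (∀ (σ : Equiv.Perm (Fin n)) (x : Edge n r → Bool), x ∈ P → (fun e => x (edgeMap σ e)) ∈ P) ∧
  (∀ x y : Edge n r → Bool, x ∈ P → (∀ e, x e = true → y e = true) → y ∈ P) ∧
  P.Nonempty ∧ P ≠ Set.univ

/-- The probability that the random hypergraph with edge probability `p` lies in `P`. -/
noncomputable def mu {n r : ℕ} (P : Set (Edge n r → Bool)) (p : ℝ) : ℝ :=
  ∑ x : Edge n r → Bool,
    P.indicator (fun y => ∏ e : Edge n r, if y e = true then p else 1 - p) x

/-- The least edge probability at which `P` has probability at least `a`. -/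
noncomputable def thr {n r : ℕ} (P : Set (Edge n r → Bool)) (a : ℝ) : ℝ :=
  sInf {p : ℝ | p ∈ Set.Icc (0 : ℝ) 1 ∧ a ≤ mu P p}

/-- The threshold width. -/
noncomputable def width {n r : ℕ} (P : Set (Edge n r → Bool)) (ε : ℝ) : ℝ :=
  thr P (1 - ε) - thr P ε

end Vale.Agent.P063
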