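import Vale.Agent.P063.Level
import Vale.Agent.P063.Defs

namespace Vale.Agent.P063

open Finset

variable {n r : ℕ}

lemma mem_edgeMap (σ : Equiv.Perm (Fin n)) (e : Edge n r) (w : Fin n) :
    w ∈ (edgeMap σ e).1 ↔ σ.symm w ∈ e.1 := by
  unfold edgeMap
  exact Finset.mem_map_equiv

lemma edgeMap_swap_invol (u v : Fin n) :
    Function.Involutive (edgeMap (r := r) (Equiv.swap u v)) := by
  intro e
  apply Subtype.ext
  ext w
  rw [mem_edgeMap, mem_edgeMap]
  simp

/-- edges meeting `U` -/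
def JU (r : ℕ) (U : Finset (Fin n)) : Finset (Edge n r) :=
  univ.filter (fun e => ∃ w ∈ e.1, w ∈ U)

lemma mem_JU (U : Finset (Fin n)) (e : Edge n r) : e ∈ JU r U ↔ ∃ w ∈ e.1, w ∈ U := by
  simp [JU]

lemma swap_mem {U : Finset (Fin n)} {u v : Fin n} (hu : u ∈ U) (hv : v ∈ U) (w : Fin n) :
    Equiv.swap u v w ∈ U ↔ w ∈ U := by
  rw [Equiv.swap_apply_def]
  split_ifs with h1 h2
  · simp [h1, hu, hv]
  · simp [h2, hu, hv]
  · rfl

lemma piecewise_swap {U : Finset (Fin n)} {u v : Fin n} (hu : u ∈ U) (hv : v ∈ U)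
    (x y : Edge n r → Bool) :
    (JU r U).piecewise (fun e => y (edgeMap (Equiv.swap u v) e)) x =
      fun e => (JU r U).piecewise y x (edgeMap (Equiv.swap u v) e) := by
  funext e
  by_cases he : e ∈ JU r U
  · have he' : edgeMap (Equiv.swap u v) e ∈ JU r U := by
      rw [mem_JU] at he ⊢
      obtain ⟨w, hw, hwU⟩ := he
      exact ⟨Equiv.swap u v w, by rw [mem_edgeMap]; simpa using hw, (swap_mem hu hv w).mpr hwU⟩
    rw [Finset.piecewise_eq_of_mem _ _ _ he, Finset.piecewise_eq_of_mem _ _ _ he']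
  · have he' : edgeMap (Equiv.swap u v) e = e := by
      rw [mem_JU] at he
      push Not at he
      apply Subtype.ext
      ext w
      rw [mem_edgeMap, Equiv.symm_swap, Equiv.swap_apply_def]
      have a1 : u ∉ e.1 := fun h => he u h hu
      have a2 : v ∉ e.1 := fun h => he v h hv
      split_ifs with h1 h2
      · simp [h1, a1, a2]
      · simp [h2, a1, a2]
      · rfl
    rw [he', Finset.piecewise_eq_of_notMem _ _ _ he, Finset.piecewise_eq_of_notMem _ _ _ he]

lemma inf_le_TI {p : ℝ} (h0 : 0 ≤ p) (h1 : p ≤ 1) (f : (Edge n r → Bool) → ℝ)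
    (hf : ∀ (σ : Equiv.Perm (Fin n)) x, f (fun e => x (edgeMap σ e)) = f x)
    (U : Finset (Fin n)) (x : Edge n r → Bool) (e : Edge n r) :
    ((U.card : ℝ) - r) * Inf p e (fun y => f ((JU r U).piecewise y x)) ≤
      TI p (fun y => f ((JU r U).piecewise y x)) := by
  set g : (Edge n r → Bool) → ℝ := fun y => f ((JU r U).piecewise y x) with hg
  by_cases he : e ∈ JU r U
  · obtain ⟨u, hue, huU⟩ := (mem_JU U e).mp he
    have hsym : ∀ v ∈ U, Inf p (edgeMap (Equiv.swap u v) e) g = Inf p e g := by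
      intro v hv
      refine Inf_equiv p (edgeMap_swap_invol u v).toPerm g (fun y => ?_) e
      simp only [hg, Function.Involutive.coe_toPerm]
      rw [piecewise_swap huU hv, hf]
    have hinj : Set.InjOn (fun v => edgeMap (Equiv.swap u v) e) (U \ e.1 : Finset (Fin n)) := by
      intro v hv v' hv' h
      have hv2 : v ∉ e.1 := (mem_sdiff.mp (Finset.mem_coe.mp hv)).2
      have a1 : v ∈ (edgeMap (Equiv.swap u v) e).1 := by
        rw [mem_edgeMap]; simpa using hue
      simp only at h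
      rw [h, mem_edgeMap, Equiv.symm_swap] at a1
      by_contra hne
      have hvu : v ≠ u := fun h => hv2 (h ▸ hue)
      rw [Equiv.swap_apply_of_ne_of_ne hvu hne] at a1
      exact hv2 a1
    have hc : (U.card : ℝ) - r ≤ ((U \ e.1).card : ℝ) := by
      have := Finset.le_card_sdiff e.1 U
      rw [e.2] at this
      have h3 : U.card ≤ (U \ e.1).card + r := by omega
      have h4 : (U.card : ℝ) ≤ ((U \ e.1).card : ℝ) + r := by exact_mod_cast h3
      linarith
    calc _ ≤ ((U \ e.1).card : ℝ) * Inf p e g :=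
          mul_le_mul_of_nonneg_right hc (Inf_nonneg h0 h1 e g)
      _ = ∑ v ∈ U \ e.1, Inf p (edgeMap (Equiv.swap u v) e) g := by
          rw [Finset.sum_congr rfl fun v hv => hsym v (mem_sdiff.mp hv).1]
          simp
      _ = ∑ e' ∈ (U \ e.1).image (fun v => edgeMap (Equiv.swap u v) e), Inf p e' g := by
          rw [Finset.sum_image hinj]
      _ ≤ TI p g := Finset.sum_le_sum_of_subset_of_nonneg (subset_univ _)
          fun e' _ _ => Inf_nonneg h0 h1 e' g
  · have : Inf p e g = 0 := by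
      unfold Inf
      have h2 : ∀ y, Dd e g y = 0 := by
        intro y
        have h3 : ∀ b, (JU r U).piecewise (Function.update y e b) x = (JU r U).piecewise y x := by
          intro b
          funext e'
          by_cases he' : e' ∈ JU r U
          · rw [Finset.piecewise_eq_of_mem _ _ _ he', Finset.piecewise_eq_of_mem _ _ _ he',
              Function.update_of_ne (fun h : e' = e => he (h ▸ he'))]
          · rw [Finset.piecewise_eq_of_notMem _ _ _ he', Finset.piecewise_eq_of_notMem _ _ _ he']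
        simp only [Dd, hg, h3, sub_self]
      simp only [h2]
      rw [Ex_const]; norm_num
    rw [this, mul_zero]
    exact TI_nonneg h0 h1 g

/-- vertex set of a hypergraph -/
def VS (S : Finset (Edge n r)) : Finset (Fin n) := S.biUnion (fun e => e.1)

/-- degree of a vertex -/
def dg (S : Finset (Edge n r)) (u : Fin n) : ℕ := (S.filter (fun e => u ∈ e.1)).card

lemma mem_VS (S : Finset (Edge n r)) (u : Fin n) : u ∈ VS S ↔ ∃ e ∈ S, u ∈ e.1 := by
  simp only [VS, mem_biUnion]

lemma card_VS_le (S : Finset (Edge n r)) : (VS S).card ≤ r * S.card := by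
  refine Finset.card_biUnion_le.trans ?_
  rw [Finset.sum_congr rfl fun e _ => e.2]
  simp [mul_comm]

lemma sum_dg_le (S : Finset (Edge n r)) : ∑ u ∈ VS S, dg S u ≤ r * S.card := by
  unfold dg
  simp_rw [Finset.card_filter]
  rw [Finset.sum_comm]
  calc _ ≤ ∑ _e ∈ S, r := by
        refine Finset.sum_le_sum fun e _ => ?_
        rw [← Finset.card_filter]
        refine le_trans (Finset.card_le_card ?_) e.2.le
        intro w hw
        exact (mem_filter.mp hw).2
    _ = r * S.card := by simp [mul_comm]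

lemma dg_le (S : Finset (Edge n r)) (u : Fin n) : dg S u ≤ (VS S).card ^ (r - 1) := by
  refine le_trans ?_ (Nat.choose_le_pow (VS S).card (r - 1))
  rw [← Finset.card_powersetCard]
  unfold dg
  refine Finset.card_le_card_of_injOn (fun e => e.1.erase u) ?_ ?_
  · intro e he
    have he' := mem_filter.mp (Finset.mem_coe.mp he)
    refine Finset.mem_coe.mpr (Finset.mem_powersetCard.mpr ⟨?_, ?_⟩)
    · intro w hw
      exact (mem_VS S w).mpr ⟨e, he'.1, Finset.mem_of_mem_erase hw⟩
    · rw [Finset.card_erase_of_mem he'.2, e.2]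
  · intro e he e' he' h
    have a1 := (mem_filter.mp (Finset.mem_coe.mp he)).2
    have a2 := (mem_filter.mp (Finset.mem_coe.mp he')).2
    apply Subtype.ext
    simp only at h
    rw [← Finset.insert_erase a1, h, Finset.insert_erase a2]

lemma good_vertex (hr : 1 ≤ r) (S : Finset (Edge n r)) (hS : S.Nonempty) (m : ℕ)
    (h : (r * S.card) ^ (r - 1) < (m + 1) ^ r) : ∃ u ∈ VS S, dg S u ≤ m := by
  by_contra hc
  push Not at hc
  obtain ⟨e, he⟩ := hS
  obtain ⟨u, hu⟩ : e.1.Nonempty := Finset.card_pos.mp (by rw [e.2]; omega)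
  have huV : u ∈ VS S := (mem_VS S u).mpr ⟨e, he, hu⟩
  have a1 : m + 1 ≤ (VS S).card ^ (r - 1) := (hc u huV).trans_le (dg_le S u)
  have a2 : (m + 1) * (VS S).card ≤ r * S.card := by
    refine le_trans ?_ (sum_dg_le S)
    have := Finset.card_nsmul_le_sum (VS S) (fun u => dg S u) (m + 1) fun u hu => hc u hu
    simpa [mul_comm] using this
  have a3 : (m + 1) ^ r = (m + 1) ^ (r - 1) * (m + 1) := by
    rw [← pow_succ]; congr 1; omega
  have a4 : (m + 1) ^ r ≤ (r * S.card) ^ (r - 1) := by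
    calc _ = _ := a3
      _ ≤ (m + 1) ^ (r - 1) * (VS S).card ^ (r - 1) := Nat.mul_le_mul_left _ a1
      _ = ((m + 1) * (VS S).card) ^ (r - 1) := by rw [mul_pow]
      _ ≤ _ := Nat.pow_le_pow_left a2 _
  omega

lemma good_small (hr : 2 ≤ r) (k m : ℕ) (h : k ^ (r - 1) < (m + 1) ^ r) : k ≤ (m + 1) ^ 2 := by
  by_contra hc
  push Not at hc
  have a1 : ((m + 1) ^ 2) ^ (r - 1) ≤ k ^ (r - 1) := Nat.pow_le_pow_left hc.le _
  have a2 : (m + 1) ^ r ≤ ((m + 1) ^ 2) ^ (r - 1) := by
    rw [← pow_mul]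
    exact Nat.pow_le_pow_right (by omega) (by omega)
  omega

/-- the random vertex set -/
def Uy (y : Fin n → Bool) : Finset (Fin n) := univ.filter (fun v => y v = true)

/-- one-coordinate indicator for the event that `u` is the only chosen vertex of `V` -/
def hb1 (V : Finset (Fin n)) (u i : Fin n) (b : Bool) : ℝ :=
  if i = u then (if b = true then 1 else 0) else if i ∈ V then (if b = true then 0 else 1) else 1

lemma prob_single {q : ℝ} (h0 : 0 ≤ q) (h1 : q ≤ 1) (V : Finset (Fin n)) (u : Fin n) :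
    q * (1 - V.card * q) ≤ Ex q (fun y => ∏ i, hb1 V u i (y i)) := by
  rw [Ex_prod q (hb1 V u), ← Finset.mul_prod_erase univ _ (mem_univ u)]
  have e1 : q * hb1 V u u true + (1 - q) * hb1 V u u false = q := by simp [hb1]
  rw [e1]
  refine mul_le_mul_of_nonneg_left ?_ h0
  have e2 : ∏ i ∈ univ.erase u, (q * hb1 V u i true + (1 - q) * hb1 V u i false) =
      ∏ i ∈ univ.erase u, (if i ∈ V then 1 - q else 1) := by
    refine Finset.prod_congr rfl fun i hi => ?_
    have := Finset.ne_of_mem_erase hi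
    unfold hb1
    split_ifs <;> simp_all
  rw [e2, Finset.prod_ite_mem, Finset.prod_const]
  have e3 : (1 - q) ^ V.card ≤ (1 - q) ^ (univ.erase u ∩ V).card :=
    pow_le_pow_of_le_one (by linarith) (by linarith)
      (Finset.card_le_card Finset.inter_subset_right)
  have e4 := one_add_mul_le_pow (a := -q) (by linarith) V.card
  have e5 : (1 + -q) = 1 - q := by ring
  rw [e5] at e4
  linarith

lemma single_event (S : Finset (Edge n r)) (u : Fin n) (y : Fin n → Bool)
    (h : ∏ i, hb1 (VS S) u i (y i) ≠ 0) : (S ∩ JU r (Uy y)).card = dg S u := by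
  have h' : ∀ i, hb1 (VS S) u i (y i) ≠ 0 := fun i => Finset.prod_ne_zero_iff.mp h i (mem_univ i)
  have hu : y u = true := by
    have := h' u
    unfold hb1 at this
    by_contra hc
    simp [hc] at this
  have hv : ∀ v ∈ VS S, y v = true → v = u := by
    intro v hv hy
    have := h' v
    unfold hb1 at this
    by_contra hc
    simp [hc, hv, hy] at this
  unfold dg
  congr 1
  ext e
  rw [mem_inter, mem_filter, mem_JU]
  refine and_congr_right fun he => ⟨?_, fun h => ⟨u, h, by simp [Uy, hu]⟩⟩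
  rintro ⟨w, hw, hwU⟩
  have : w = u := hv w ((mem_VS S w).mpr ⟨e, he, hw⟩) (by simpa [Uy] using hwU)
  exact this ▸ hw

lemma hb1_prod_le (V : Finset (Fin n)) (u : Fin n) (y : Fin n → Bool) :
    ∏ i, hb1 V u i (y i) ≤ 1 := by
  refine Finset.prod_le_one (fun i _ => ?_) (fun i _ => ?_) <;> unfold hb1 <;>
    split_ifs <;> norm_num

lemma prob_small {q t : ℝ} (h0 : 0 < q) (h1 : q ≤ 1) (ht : t ≤ n * q / 2) (hn : 16 ≤ n * q ^ 2) :
    Ex q (fun y : Fin n → Bool => if ((Uy y).card : ℝ) < t then (1 : ℝ) else 0) ≤ q / 4 := by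
  have hn0 : (0 : ℝ) < n := by
    by_contra hc
    have : (n : ℝ) = 0 := le_antisymm (not_lt.mp hc) (Nat.cast_nonneg n)
    rw [this] at hn; linarith
  have hnq : 0 < n * q := mul_pos hn0 h0
  have e1 : ∀ y : Fin n → Bool, ((Uy y).card : ℝ) - n * q =
      ∑ i : Fin n, (1 : ℝ) * psi q {i} y := by
    intro y
    simp only [psi, prod_singleton, one_mul, ps1, Finset.sum_sub_distrib, Uy, Finset.card_filter]
    simp
  have e2 := Ex_quad q (univ : Finset (Fin n)) (fun i => ({i} : Finset (Fin n)))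
    (fun i _ j _ h => Finset.singleton_injective h) (fun _ => 1)
  simp only [← e1] at e2
  simp only [card_singleton, pow_one, one_pow, one_mul, sum_const, card_univ, Fintype.card_fin,
    nsmul_eq_mul] at e2
  calc _ ≤ Ex q (fun y : Fin n → Bool => (4 / (n * q) ^ 2) * (((Uy y).card : ℝ) - n * q) ^ 2) := by
        refine Ex_mono h0.le h1 fun y => ?_
        split_ifs with h
        · rw [div_mul_eq_mul_div, le_div_iff₀ (by positivity)]
          have : (0 : ℝ) ≤ (Uy y).card := Nat.cast_nonneg _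
          nlinarith
        · positivity
    _ = (4 / (n * q) ^ 2) * (n * (q * (1 - q))) := by rw [Ex_mul_left, e2]
    _ ≤ q / 4 := by
        rw [div_mul_eq_mul_div, div_le_div_iff₀ (by positivity) (by norm_num)]
        have a1 : n * (q * (1 - q)) ≤ n * q := by nlinarith
        have a2 : 16 * (n * q) ≤ (n * q ^ 2) * (n * q) := mul_le_mul_of_nonneg_right hn hnq.le
        nlinarith

lemma good_prob (hr : 2 ≤ r) {q t : ℝ} (h0 : 0 < q) (m : ℕ) (hq : 2 * q * (m + 1) ^ 2 ≤ 1)
    (ht : t ≤ n * q / 2) (hn : 16 ≤ n * q ^ 2) (S : Finset (Edge n r)) (hS : S.Nonempty)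
    (h : (r * S.card) ^ (r - 1) < (m + 1) ^ r) :
    q / 4 ≤ Ex q (fun y : Fin n → Bool => (if t ≤ ((Uy y).card : ℝ) then (1 : ℝ) else 0) *
      (if 1 ≤ (S ∩ JU r (Uy y)).card ∧ (S ∩ JU r (Uy y)).card ≤ m then 1 else 0)) := by
  have hm1 : (1 : ℝ) ≤ (m + 1) ^ 2 := by
    have : (0 : ℝ) ≤ m := Nat.cast_nonneg m
    nlinarith
  have h1 : q ≤ 1 := by nlinarith
  obtain ⟨u, huV, hum⟩ := good_vertex (by omega) S hS m h
  have hu1 : 1 ≤ dg S u := by
    obtain ⟨e, he, hue⟩ := (mem_VS S u).mp huV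
    exact Finset.card_pos.mpr ⟨e, mem_filter.mpr ⟨he, hue⟩⟩
  have hV : ((VS S).card : ℝ) ≤ (m + 1) ^ 2 := by
    exact_mod_cast (card_VS_le S).trans (good_small hr _ m h)
  have a1 := prob_single h0.le h1 (VS S) u
  have a2 := prob_small h0 h1 ht hn
  have a3 : q / 2 ≤ q * (1 - (VS S).card * q) := by nlinarith
  calc q / 4 ≤ Ex q (fun y => ∏ i, hb1 (VS S) u i (y i)) -
        Ex q (fun y : Fin n → Bool => if ((Uy y).card : ℝ) < t then (1 : ℝ) else 0) := by linarith
    _ ≤ _ := by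
        rw [← Ex_sub]
        refine Ex_mono h0.le h1 fun y => ?_
        have b1 := hb1_prod_le (VS S) u y
        by_cases hz : ∏ i, hb1 (VS S) u i (y i) = 0
        · rw [hz]; split_ifs <;> norm_num
        · rw [single_event S u y hz, if_pos (And.intro hu1 hum)]
          by_cases hc : t ≤ ((Uy y).card : ℝ)
          · rw [if_pos hc, if_neg (not_lt.mpr hc)]; linarith
          · rw [if_neg hc, if_pos (not_le.mp hc)]; linarith

lemma good_sum (hr : 2 ≤ r) {p : ℝ} (h0 : 0 < p) (h1 : p < 1) (c : Finset (Edge n r) → ℝ)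
    (hb : ∀ x, Fc p c x = 0 ∨ Fc p c x = 1)
    (hf : ∀ (σ : Equiv.Perm (Fin n)) x, Fc p c (fun e => x (edgeMap σ e)) = Fc p c x)
    (m : ℕ) {δ q t : ℝ} (hδ : 0 ≤ δ) (hq0 : 0 < q) (hq : 2 * q * (m + 1) ^ 2 ≤ 1)
    (ht : t ≤ n * q / 2) (hn : 16 ≤ n * q ^ 2) (hδt : 1 ≤ δ ^ 4 * (t - r)) :
    q / 4 * ∑ S : Finset (Edge n r),
      (if S.Nonempty ∧ (r * S.card) ^ (r - 1) < (m + 1) ^ r then 1 else 0) * Wc p c S ≤
      (((p * (1 - p))⁻¹) ^ m * δ + δ ^ 2) * TI p (Fc p c) := by
  have hl0 : 0 < p * (1 - p) := mul_pos h0 (by linarith)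
  have hm1 : (1 : ℝ) ≤ (m + 1) ^ 2 := by
    have : (0 : ℝ) ≤ m := Nat.cast_nonneg m
    nlinarith
  have hq1 : q ≤ 1 := by nlinarith
  set B := (((p * (1 - p))⁻¹) ^ m * δ + δ ^ 2) * TI p (Fc p c) with hB
  have hB0 : 0 ≤ B := mul_nonneg (by positivity) (TI_nonneg h0.le h1.le _)
  have a1 : ∀ y : Fin n → Bool, ∑ S : Finset (Edge n r), Wc p c S *
      ((if t ≤ ((Uy y).card : ℝ) then (1 : ℝ) else 0) *
      (if 1 ≤ (S ∩ JU r (Uy y)).card ∧ (S ∩ JU r (Uy y)).card ≤ m then 1 else 0)) ≤ B := by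
    intro y
    by_cases hc : t ≤ ((Uy y).card : ℝ)
    · have := res_bound h0 h1 c hb m hδ (JU r (Uy y)) (fun x e => by
        have b1 := inf_le_TI h0.le h1.le (Fc p c) hf (Uy y) x e
        have b2 := Inf_nonneg h0.le h1.le e (fun z => Fc p c ((JU r (Uy y)).piecewise z x))
        have b3 : 1 ≤ δ ^ 4 * (((Uy y).card : ℝ) - r) :=
          hδt.trans (mul_le_mul_of_nonneg_left (by linarith) (by positivity))
        have b4 := mul_le_mul_of_nonneg_left b1 (show 0 ≤ δ ^ 4 by positivity)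
        nlinarith)
      refine le_trans (le_of_eq ?_) this
      refine Finset.sum_congr rfl fun S _ => ?_
      rw [if_pos hc]; ring
    · simp only [if_neg hc, zero_mul, mul_zero, sum_const_zero]; exact hB0
  have a2 := Ex_mono hq0.le hq1 a1
  rw [Ex_const, Ex_sum] at a2
  refine le_trans ?_ a2
  rw [Finset.mul_sum]
  refine Finset.sum_le_sum fun S _ => ?_
  rw [Ex_mul_left]
  have hW := Wc_nonneg h0.le h1.le c S
  split_ifs with h
  · have := good_prob hr hq0 m hq ht hn S h.1 h.2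
    nlinarith
  · rw [zero_mul, mul_zero]
    exact mul_nonneg hW (Ex_nonneg hq0.le hq1 fun y => by split_ifs <;> norm_num)

lemma var_bound (hr : 2 ≤ r) {p : ℝ} (h0 : 0 < p) (h1 : p < 1) (f : (Edge n r → Bool) → ℝ)
    (hb : ∀ x, f x = 0 ∨ f x = 1)
    (hf : ∀ (σ : Equiv.Perm (Fin n)) x, f (fun e => x (edgeMap σ e)) = f x)
    (m : ℕ) {δ q t M : ℝ} (hδ : 0 ≤ δ) (hq0 : 0 < q) (hq : 2 * q * (m + 1) ^ 2 ≤ 1)
    (ht : t ≤ n * q / 2) (hn : 16 ≤ n * q ^ 2) (hδt : 1 ≤ δ ^ 4 * (t - r))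
    (hM0 : 0 < M) (hM : M ^ (r - 1) ≤ ((m : ℝ) + 1) ^ r) :
    Ex p f * (1 - Ex p f) ≤
      (4 / q * (((p * (1 - p))⁻¹) ^ m * δ + δ ^ 2) + r * (p * (1 - p)) / M) * TI p f := by
  obtain ⟨c, rfl⟩ := exists_coef p f
  have a1 := good_sum hr h0 h1 c hb hf m hδ hq0 hq ht hn hδt
  have a2 := TI_Fc p c
  have a3 : Ex p (Fc p c) * (1 - Ex p (Fc p c)) =
      ∑ S : Finset (Edge n r), (if S.Nonempty then 1 else 0) * Wc p c S := by
    have b1 : Ex p (Fc p c) = ∑ S, Wc p c S := by
      rw [← Ex_sq_Fc]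
      exact Ex_congr p fun x => by rcases hb x with a | a <;> rw [a] <;> norm_num
    have b2 : Ex p (Fc p c) ^ 2 = Wc p c ∅ := by rw [Ex_Fc]; simp [Wc]
    have b3 : ∑ S : Finset (Edge n r), Wc p c S = Wc p c ∅ +
        ∑ S : Finset (Edge n r), (if S.Nonempty then 1 else 0) * Wc p c S := by
      have : Wc p c ∅ = ∑ S : Finset (Edge n r), if S = ∅ then Wc p c S else 0 := by simp
      rw [this, ← Finset.sum_add_distrib]
      refine Finset.sum_congr rfl fun S _ => ?_
      by_cases h : S = ∅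
      · simp [h]
      · simp [h, Finset.nonempty_iff_ne_empty]
    nlinarith
  have a4 : ∑ S : Finset (Edge n r), (if S.Nonempty then 1 else 0) * Wc p c S ≤
      ∑ S : Finset (Edge n r),
      (if S.Nonempty ∧ (r * S.card) ^ (r - 1) < (m + 1) ^ r then 1 else 0) * Wc p c S +
      r / M * ∑ S : Finset (Edge n r), (S.card : ℝ) * Wc p c S := by
    rw [Finset.mul_sum, ← Finset.sum_add_distrib]
    refine Finset.sum_le_sum fun S _ => ?_
    have hW := Wc_nonneg h0.le h1.le c S
    have b0 : 0 ≤ r / M * ((S.card : ℝ) * Wc p c S) := by positivity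
    by_cases hS : S.Nonempty
    · by_cases hg : (r * S.card) ^ (r - 1) < (m + 1) ^ r
      · rw [if_pos hS, if_pos ⟨hS, hg⟩]; linarith
      · rw [if_pos hS, if_neg (fun h => hg h.2)]
        have b1 : ((m : ℝ) + 1) ^ r ≤ ((r : ℝ) * S.card) ^ (r - 1) := by
          exact_mod_cast not_lt.mp hg
        have b2 : M ≤ (r : ℝ) * S.card :=
          le_of_pow_le_pow_left₀ (n := r - 1) (by omega) (by positivity) (hM.trans b1)
        have b3 : 1 ≤ r / M * S.card := by
          rw [div_mul_eq_mul_div, le_div_iff₀ hM0]; linarith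
        nlinarith
    · rw [if_neg hS, if_neg (fun h => hS h.1)]; linarith
  rw [a3]
  refine a4.trans ?_
  rw [← a2, add_mul]
  refine add_le_add ?_ (le_of_eq (by ring))
  rw [mul_assoc, div_mul_eq_mul_div, le_div_iff₀ hq0]
  linarith

end Vale.Agent.P063
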