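import Vale.Agent.P063.Cube

namespace Vale.Agent.P063

open Finset

variable {ι : Type*} [Fintype ι] [DecidableEq ι]

/-- discrete derivative -/
noncomputable def Dd (e : ι) (g : (ι → Bool) → ℝ) (x : ι → Bool) : ℝ :=
  g (Function.update x e true) - g (Function.update x e false)

/-- influence -/
noncomputable def Inf (p : ℝ) (e : ι) (g : (ι → Bool) → ℝ) : ℝ := Ex p (fun x => Dd e g x ^ 2)

/-- total influence -/
noncomputable def TI (p : ℝ) (g : (ι → Bool) → ℝ) : ℝ := ∑ e, Inf p e g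

/-- weight of a coefficient -/
noncomputable def Wc (p : ℝ) (c : Finset ι → ℝ) (S : Finset ι) : ℝ :=
  c S ^ 2 * (p * (1 - p)) ^ S.card

omit [Fintype ι] [DecidableEq ι] in
lemma Wc_nonneg {p : ℝ} (h0 : 0 ≤ p) (h1 : p ≤ 1) (c : Finset ι → ℝ) (S : Finset ι) :
    0 ≤ Wc p c S :=
  mul_nonneg (sq_nonneg _) (pow_nonneg (mul_nonneg h0 (by linarith)) _)

lemma Inf_nonneg {p : ℝ} (h0 : 0 ≤ p) (h1 : p ≤ 1) (e : ι) (g : (ι → Bool) → ℝ) :
    0 ≤ Inf p e g := Ex_nonneg h0 h1 fun _ => sq_nonneg _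

lemma TI_nonneg {p : ℝ} (h0 : 0 ≤ p) (h1 : p ≤ 1) (g : (ι → Bool) → ℝ) :
    0 ≤ TI p g := Finset.sum_nonneg fun e _ => Inf_nonneg h0 h1 e g

lemma Dd_Fc (p : ℝ) (c : Finset ι → ℝ) (e : ι) (x : ι → Bool) :
    Dd e (Fc p c) x = ∑ S ∈ univ.filter (fun S : Finset ι => e ∈ S), c S * psi p (S.erase e) x := by
  unfold Dd Fc
  rw [← Finset.sum_sub_distrib, Finset.sum_filter]
  refine Finset.sum_congr rfl fun S _ => ?_
  split_ifs with h
  · have h2 : e ∉ S.erase e := Finset.notMem_erase e S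
    have h3 : ∀ y, psi p S y = ps1 p (y e) * psi p (S.erase e) y := by
      intro y
      rw [← psi_insert p h2, Finset.insert_erase h]
    rw [h3, h3, psi_update_of_notMem p h2, psi_update_of_notMem p h2]
    simp only [Function.update_self, ps1_true, ps1_false]
    ring
  · rw [psi_update_of_notMem p h, psi_update_of_notMem p h]; ring

lemma erase_inj_filter (e : ι) (q : Finset ι → Prop) [DecidablePred q] (hq : ∀ S, q S → e ∈ S) :
    ∀ S ∈ univ.filter q, ∀ T ∈ univ.filter q, S.erase e = T.erase e → S = T := by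
  intro S hS T hT h
  rw [← Finset.insert_erase (hq S (mem_filter.mp hS).2), h,
    Finset.insert_erase (hq T (mem_filter.mp hT).2)]

lemma Inf_Fc (p : ℝ) (c : Finset ι → ℝ) (e : ι) :
    p * (1 - p) * Inf p e (Fc p c) = ∑ S ∈ univ.filter (fun S : Finset ι => e ∈ S), Wc p c S := by
  unfold Inf
  simp_rw [Dd_Fc]
  rw [Ex_quad p _ (fun S : Finset ι => S.erase e) (erase_inj_filter e _ fun _ h => h), Finset.mul_sum]
  refine Finset.sum_congr rfl fun S hS => ?_
  have he : e ∈ S := (mem_filter.mp hS).2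
  unfold Wc
  rw [← Finset.card_erase_add_one he]
  ring

lemma TI_Fc (p : ℝ) (c : Finset ι → ℝ) :
    p * (1 - p) * TI p (Fc p c) = ∑ S : Finset ι, (S.card : ℝ) * Wc p c S := by
  unfold TI
  rw [Finset.mul_sum]
  simp_rw [Inf_Fc, Finset.sum_filter]
  rw [Finset.sum_comm]
  refine Finset.sum_congr rfl fun S _ => ?_
  rw [Finset.sum_ite_mem]
  simp

lemma Ex_sq_Fc (p : ℝ) (c : Finset ι → ℝ) :
    Ex p (fun x => Fc p c x ^ 2) = ∑ S, Wc p c S :=
  Ex_quad p univ (fun S => S) (fun _ _ _ _ h => h) c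

lemma Ex_Fc (p : ℝ) (c : Finset ι → ℝ) : Ex p (Fc p c) = c ∅ := by
  have h : ∀ S : Finset ι, Ex p (fun x => c S * psi p S x) = if S = ∅ then c ∅ else 0 := by
    intro S
    rw [Ex_mul_left]
    have := psi_orth p S ∅
    simp only [psi, prod_empty, mul_one] at this
    unfold psi
    rw [this]
    split_ifs with h
    · subst h; simp
    · simp
  have := Ex_sum p univ (fun S x => c S * psi p S x)
  unfold Fc
  rw [this]
  simp_rw [h]
  simp

lemma hyper_fam {α : Type*} {p : ℝ} (h0 : 0 ≤ p) (h1 : p ≤ 1) (A : Finset α) (s : α → Finset ι)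
    (hs : ∀ i ∈ A, ∀ j ∈ A, s i = s j → i = j) (a : α → ℝ) :
    Ex p (fun x => (∑ i ∈ A, a i * psi p (s i) x) ^ 4) ≤ (∑ i ∈ A, a i ^ 2) ^ 2 := by
  classical
  have h := hyper h0 h1 (fun T => ∑ i ∈ A, if s i = T then a i else 0)
  have e1 : ∀ x, Fc p (fun T => ∑ i ∈ A, if s i = T then a i else 0) x =
      ∑ i ∈ A, a i * psi p (s i) x := by
    intro x
    unfold Fc
    simp_rw [Finset.sum_mul]
    rw [Finset.sum_comm]
    refine Finset.sum_congr rfl fun i _ => ?_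
    simp
  have e2 : ∑ T : Finset ι, (∑ i ∈ A, if s i = T then a i else 0) ^ 2 = ∑ i ∈ A, a i ^ 2 := by
    have e3 : ∀ T : Finset ι, (∑ i ∈ A, if s i = T then a i else 0) ^ 2 =
        ∑ i ∈ A, if s i = T then a i ^ 2 else 0 := by
      intro T
      rw [sq, Finset.sum_mul_sum]
      refine Finset.sum_congr rfl fun i hi => ?_
      rw [Finset.sum_eq_single i]
      · split_ifs <;> ring
      · intro j hj hji
        by_cases h1 : s i = T
        · have : s j ≠ T := fun h2 => hji (hs j hj i hi (h2.trans h1.symm))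
          simp [this]
        · simp [h1]
      · intro h; exact absurd hi h
    simp_rw [e3]
    rw [Finset.sum_comm]
    refine Finset.sum_congr rfl fun i _ => ?_
    simp
  simp_rw [e1] at h
  rwa [e2] at h

lemma alg_level {N P Q R K δ : ℝ} (hN : 0 ≤ N) (hP : 0 ≤ P) (hK : 0 ≤ K) (hδ : 0 ≤ δ)
    (_hQ : 0 ≤ Q) (h1 : N ^ 2 ≤ P * Q) (h2 : Q ^ 2 ≤ P * R) (h3 : R ≤ (K * N) ^ 2)
    (h4 : P ≤ δ ^ 2) : N ≤ K * δ * P := by
  rcases hN.eq_or_lt with h | h
  · rw [← h]; positivity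
  have a1 : (N ^ 2) ^ 2 ≤ (P * Q) ^ 2 := pow_le_pow_left₀ (sq_nonneg _) h1 2
  have a2 : (P * Q) ^ 2 ≤ P ^ 2 * (P * (K * N) ^ 2) := by
    rw [mul_pow]
    refine mul_le_mul_of_nonneg_left (h2.trans ?_) (sq_nonneg _)
    exact mul_le_mul_of_nonneg_left h3 hP
  have a3 : P ^ 2 * (P * (K * N) ^ 2) ≤ P ^ 2 * (δ ^ 2 * (K * N) ^ 2) :=
    mul_le_mul_of_nonneg_left (mul_le_mul_of_nonneg_right h4 (sq_nonneg _)) (sq_nonneg _)
  have a4 : N ^ 2 * N ^ 2 ≤ (K * δ * P) ^ 2 * N ^ 2 := by nlinarith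
  have a5 : N ^ 2 ≤ (K * δ * P) ^ 2 := le_of_mul_le_mul_right a4 (by positivity)
  exact (abs_le_of_sq_le_sq' a5 (by positivity)).2

lemma level_e {p : ℝ} (h0 : 0 < p) (h1 : p < 1) (c : Finset ι → ℝ)
    (hb : ∀ x, Fc p c x = 0 ∨ Fc p c x = 1) (m : ℕ) (e : ι) {δ : ℝ} (hδ : 0 ≤ δ)
    (hI : Inf p e (Fc p c) ≤ δ ^ 2) :
    ∑ S ∈ univ.filter (fun S : Finset ι => e ∈ S ∧ S.card ≤ m), Wc p c S ≤
      ((p * (1 - p))⁻¹) ^ m * δ * Inf p e (Fc p c) := by
  have hl0 : 0 < p * (1 - p) := mul_pos h0 (by linarith)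
  have hl1 : p * (1 - p) ≤ 1 := by nlinarith
  set l := p * (1 - p) with hl
  set A := univ.filter (fun S : Finset ι => e ∈ S ∧ S.card ≤ m) with hA
  set u : (ι → Bool) → ℝ := fun x => ∑ S ∈ A, c S * psi p (S.erase e) x with hu
  set h : (ι → Bool) → ℝ := Dd e (Fc p c) with hh
  set N := ∑ S ∈ A, c S ^ 2 * l ^ (S.erase e).card with hN
  have hAinj := erase_inj_filter e (fun S : Finset ι => e ∈ S ∧ S.card ≤ m) fun _ h => h.1
  have hN0 : 0 ≤ N := Finset.sum_nonneg fun S _ => by positivity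
  have hh3 : ∀ x, h x = 0 ∨ h x = 1 ∨ h x = -1 := by
    intro x
    simp only [hh, Dd]
    rcases hb (Function.update x e true) with a | a <;>
      rcases hb (Function.update x e false) with b | b <;> rw [a, b] <;> norm_num
  have hu' : ∀ x, u x = ∑ S ∈ univ.filter (fun S : Finset ι => e ∈ S),
      (if S.card ≤ m then c S else 0) * psi p (S.erase e) x := by
    intro x
    simp only [hu, hA, Finset.sum_filter]
    refine Finset.sum_congr rfl fun S _ => ?_
    by_cases a : e ∈ S <;> by_cases b : S.card ≤ m <;> simp [a, b]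
  have e1 : Ex p (fun x => h x * u x) = N := by
    simp_rw [hu', hh, Dd_Fc]
    rw [Ex_bilin p _ (fun S : Finset ι => S.erase e) (erase_inj_filter e _ fun _ h => h)]
    simp only [hN, hA, Finset.sum_filter]
    refine Finset.sum_congr rfl fun S _ => ?_
    by_cases a : e ∈ S <;> by_cases b : S.card ≤ m <;> simp [a, b, hl, sq]
  have c1 := Ex_cs h0.le h1.le h (fun x => h x ^ 2 * u x)
  have c2 := Ex_cs h0.le h1.le (fun x => h x ^ 2) (fun x => u x ^ 2)
  have r1 : ∀ x, h x * (h x ^ 2 * u x) = h x * u x := by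
    intro x; rcases hh3 x with a | a | a <;> rw [a] <;> ring
  have r2 : ∀ x, (h x ^ 2 * u x) ^ 2 = h x ^ 2 * u x ^ 2 := by
    intro x; rcases hh3 x with a | a | a <;> rw [a] <;> ring
  have r3 : ∀ x, (h x ^ 2) ^ 2 = h x ^ 2 := by
    intro x; rcases hh3 x with a | a | a <;> rw [a] <;> ring
  have r4 : ∀ x, (u x ^ 2) ^ 2 = u x ^ 4 := fun x => by ring
  simp only [r1, r2] at c1
  simp only [r3, r4] at c2
  rw [e1] at c1
  have c3 : Ex p (fun x => u x ^ 4) ≤ (∑ S ∈ A, c S ^ 2) ^ 2 :=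
    hyper_fam h0.le h1.le A (fun S : Finset ι => S.erase e) hAinj c
  have hK0 : 0 ≤ l⁻¹ ^ m := by positivity
  have c4 : ∑ S ∈ A, c S ^ 2 ≤ l⁻¹ ^ m * N := by
    rw [hN, Finset.mul_sum]
    refine Finset.sum_le_sum fun S hS => ?_
    have hS2 : S.card ≤ m := (mem_filter.mp hS).2.2
    have hS3 : (S.erase e).card ≤ m := Finset.card_erase_le.trans hS2
    have : l ^ m ≤ l ^ (S.erase e).card := pow_le_pow_of_le_one hl0.le hl1 hS3
    have h5 : 1 ≤ l⁻¹ ^ m * l ^ (S.erase e).card := by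
      calc (1 : ℝ) = l⁻¹ ^ m * l ^ m := by rw [← mul_pow, inv_mul_cancel₀ hl0.ne', one_pow]
        _ ≤ _ := mul_le_mul_of_nonneg_left this hK0
    nlinarith [sq_nonneg (c S)]
  have c5 : Ex p (fun x => u x ^ 4) ≤ (l⁻¹ ^ m * N) ^ 2 :=
    c3.trans (pow_le_pow_left₀ (Finset.sum_nonneg fun _ _ => sq_nonneg _) c4 2)
  have hP : Inf p e (Fc p c) = Ex p (fun x => h x ^ 2) := rfl
  have key := alg_level hN0 (Inf_nonneg h0.le h1.le e (Fc p c)) hK0 hδ
    (Ex_nonneg h0.le h1.le (f := fun x => h x ^ 2 * u x ^ 2) fun x => by positivity)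
    (by rw [hP]; exact c1) (by rw [hP]; exact c2) c5 hI
  refine le_trans ?_ key
  rw [hN]
  refine Finset.sum_le_sum fun S hS => ?_
  unfold Wc
  refine mul_le_mul_of_nonneg_left ?_ (sq_nonneg _)
  exact pow_le_pow_of_le_one hl0.le hl1 Finset.card_erase_le

lemma level_all {p : ℝ} (h0 : 0 < p) (h1 : p < 1) (c : Finset ι → ℝ)
    (hb : ∀ x, Fc p c x = 0 ∨ Fc p c x = 1) (m : ℕ) {δ : ℝ} (hδ : 0 ≤ δ)
    (hI : ∀ e, Inf p e (Fc p c) ≤ δ ^ 2) :
    ∑ S : Finset ι, (if 1 ≤ S.card ∧ S.card ≤ m then 1 else 0) * Wc p c S ≤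
      ((p * (1 - p))⁻¹) ^ m * δ * TI p (Fc p c) := by
  unfold TI
  rw [Finset.mul_sum]
  refine le_trans ?_ (Finset.sum_le_sum fun e _ => level_e h0 h1 c hb m e hδ (hI e))
  simp_rw [Finset.sum_filter]
  rw [Finset.sum_comm]
  refine Finset.sum_le_sum fun S _ => ?_
  have hW := Wc_nonneg h0.le h1.le c S
  split_ifs with h
  · obtain ⟨e, he⟩ := Finset.card_pos.mp h.1
    refine le_trans ?_ (Finset.single_le_sum (f := fun e => if e ∈ S ∧ S.card ≤ m then Wc p c S
      else 0) (fun i _ => by split_ifs <;> simp [hW]) (mem_univ e))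
    simp [he, h.2]
  · rw [zero_mul]
    exact Finset.sum_nonneg fun i _ => by split_ifs <;> simp [hW]

lemma alpha_bound {p : ℝ} (h0 : 0 < p) (h1 : p < 1) (c : Finset ι → ℝ)
    (hb : ∀ x, Fc p c x = 0 ∨ Fc p c x = 1) (m : ℕ) {δ : ℝ} (hδ : 0 ≤ δ)
    (hI : ∀ e, Inf p e (Fc p c) ≤ δ ^ 4 * TI p (Fc p c)) :
    ∑ S : Finset ι, (if 1 ≤ S.card ∧ S.card ≤ m then 1 else 0) * Wc p c S ≤
      (((p * (1 - p))⁻¹) ^ m * δ + δ ^ 2) * TI p (Fc p c) := by
  have hT := TI_nonneg h0.le h1.le (Fc p c)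
  have hl0 : 0 < p * (1 - p) := mul_pos h0 (by linarith)
  have hK : 0 ≤ ((p * (1 - p))⁻¹) ^ m * δ * TI p (Fc p c) := by positivity
  by_cases hc : δ ^ 2 * TI p (Fc p c) ≤ 1
  · have := level_all h0 h1 c hb m hδ (fun e => (hI e).trans (by nlinarith [sq_nonneg δ]))
    have h2 : 0 ≤ δ ^ 2 * TI p (Fc p c) := by positivity
    nlinarith
  · push Not at hc
    have h2 : ∑ S : Finset ι, (if 1 ≤ S.card ∧ S.card ≤ m then 1 else 0) * Wc p c S ≤
        ∑ S, Wc p c S := by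
      refine Finset.sum_le_sum fun S _ => ?_
      have hW := Wc_nonneg h0.le h1.le c S
      split_ifs <;> simp [hW]
    rw [← Ex_sq_Fc] at h2
    have h3 : Ex p (fun x => Fc p c x ^ 2) ≤ Ex p (fun _ => (1 : ℝ)) :=
      Ex_mono h0.le h1.le fun x => by rcases hb x with a | a <;> rw [a] <;> norm_num
    rw [Ex_one] at h3
    nlinarith

/-- coefficients of a restriction -/
noncomputable def cres (p : ℝ) (J : Finset ι) (c : Finset ι → ℝ) (x : ι → Bool) (T : Finset ι) :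
    ℝ := ∑ S ∈ univ.filter (fun S : Finset ι => S ∩ J = T), c S * psi p (S \ J) x

lemma Fc_cres (p : ℝ) (J : Finset ι) (c : Finset ι → ℝ) (x y : ι → Bool) :
    Fc p (cres p J c x) y = Fc p c (J.piecewise y x) := by
  unfold Fc cres
  simp_rw [Finset.sum_mul, Finset.sum_filter]
  rw [Finset.sum_comm]
  refine Finset.sum_congr rfl fun S _ => ?_
  rw [Finset.sum_ite_eq]
  simp only [mem_univ, if_true]
  unfold psi
  rw [← Finset.prod_inter_mul_prod_sdiff S J (fun i => ps1 p (J.piecewise y x i))]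
  have e1 : ∏ i ∈ S ∩ J, ps1 p (J.piecewise y x i) = ∏ i ∈ S ∩ J, ps1 p (y i) :=
    Finset.prod_congr rfl fun i hi => by
      rw [Finset.piecewise_eq_of_mem _ _ _ (mem_inter.mp hi).2]
  have e2 : ∏ i ∈ S \ J, ps1 p (J.piecewise y x i) = ∏ i ∈ S \ J, ps1 p (x i) :=
    Finset.prod_congr rfl fun i hi => by
      rw [Finset.piecewise_eq_of_notMem _ _ _ (mem_sdiff.mp hi).2]
  rw [e1, e2]; ring

lemma Ex_Wc_cres (p : ℝ) (J : Finset ι) (c : Finset ι → ℝ) (h : Finset ι → ℝ) :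
    Ex p (fun x => ∑ T, h T * Wc p (cres p J c x) T) = ∑ S, h (S ∩ J) * Wc p c S := by
  rw [Ex_sum]
  have e1 : ∀ T : Finset ι, Ex p (fun x => h T * Wc p (cres p J c x) T) =
      ∑ S : Finset ι, if S ∩ J = T then h (S ∩ J) * Wc p c S else 0 := by
    intro T
    have e2 : ∀ x, h T * Wc p (cres p J c x) T = (h T * (p * (1 - p)) ^ T.card) *
        (∑ S ∈ univ.filter (fun S : Finset ι => S ∩ J = T), c S * psi p (S \ J) x) ^ 2 := by
      intro x; unfold Wc cres; ring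
    simp_rw [e2]
    rw [Ex_mul_left, Ex_quad p _ (fun S => S \ J), Finset.mul_sum, ← Finset.sum_filter]
    · refine Finset.sum_congr rfl fun S hS => ?_
      have hS2 : S ∩ J = T := (mem_filter.mp hS).2
      unfold Wc
      rw [← Finset.card_inter_add_card_sdiff S J, hS2]
      ring
    · intro S hS S' hS' hh
      have a1 : S ∩ J = T := (mem_filter.mp hS).2
      have a2 : S' ∩ J = T := (mem_filter.mp hS').2
      rw [← Finset.sdiff_union_inter S J, ← Finset.sdiff_union_inter S' J, a1, a2]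
      exact congrArg (· ∪ T) hh
  simp_rw [e1]
  rw [Finset.sum_comm]
  refine Finset.sum_congr rfl fun S _ => ?_
  simp

lemma Ex_comp_equiv (p : ℝ) (τ : ι ≃ ι) (G : (ι → Bool) → ℝ) :
    Ex p (fun y => G (fun i => y (τ i))) = Ex p G := by
  unfold Ex
  let T : (ι → Bool) ≃ (ι → Bool) :=
    { toFun := fun y i => y (τ i)
      invFun := fun y i => y (τ.symm i)
      left_inv := fun y => by funext i; simp
      right_inv := fun y => by funext i; simp }
  rw [← Equiv.sum_comp T (fun y => wt p y * G y)]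
  refine Finset.sum_congr rfl fun y _ => ?_
  congr 1
  unfold wt
  exact (Equiv.prod_comp τ (fun i => w1 p (y i))).symm

lemma Inf_equiv (p : ℝ) (τ : ι ≃ ι) (g : (ι → Bool) → ℝ)
    (hg : ∀ y, g (fun i => y (τ i)) = g y) (e : ι) : Inf p (τ e) g = Inf p e g := by
  unfold Inf
  rw [← Ex_comp_equiv p τ (fun x => Dd e g x ^ 2)]
  refine Ex_congr p fun y => ?_
  have h : ∀ b, g (Function.update (fun i => y (τ i)) e b) = g (Function.update y (τ e) b) := by
    intro b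
    rw [← hg (Function.update y (τ e) b)]
    congr 1
    funext i
    by_cases hi : i = e
    · subst hi; simp
    · rw [Function.update_of_ne hi, Function.update_of_ne (fun h => hi (τ.injective h))]
  unfold Dd
  rw [h, h]

/-- the restricted low-level estimate -/
lemma res_bound {p : ℝ} (h0 : 0 < p) (h1 : p < 1) (c : Finset ι → ℝ)
    (hb : ∀ x, Fc p c x = 0 ∨ Fc p c x = 1) (m : ℕ) {δ : ℝ} (hδ : 0 ≤ δ) (J : Finset ι)
    (hI : ∀ x e, Inf p e (fun y => Fc p c (J.piecewise y x)) ≤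
      δ ^ 4 * TI p (fun y => Fc p c (J.piecewise y x))) :
    ∑ S : Finset ι, (if 1 ≤ (S ∩ J).card ∧ (S ∩ J).card ≤ m then 1 else 0) * Wc p c S ≤
      (((p * (1 - p))⁻¹) ^ m * δ + δ ^ 2) * TI p (Fc p c) := by
  have hl0 : 0 < p * (1 - p) := mul_pos h0 (by linarith)
  have hf : ∀ x, (fun y => Fc p c (J.piecewise y x)) = Fc p (cres p J c x) :=
    fun x => funext fun y => (Fc_cres p J c x y).symm
  rw [← Ex_Wc_cres p J c (fun T => if 1 ≤ T.card ∧ T.card ≤ m then 1 else 0)]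
  set α := ((p * (1 - p))⁻¹) ^ m * δ + δ ^ 2 with hα
  have hα0 : 0 ≤ α := by positivity
  have a1 : Ex p (fun x => ∑ T : Finset ι, (if 1 ≤ T.card ∧ T.card ≤ m then 1 else 0) *
      Wc p (cres p J c x) T) ≤ Ex p (fun x => α * TI p (Fc p (cres p J c x))) := by
    refine Ex_mono h0.le h1.le fun x => alpha_bound h0 h1 _ (fun y => ?_) m hδ (fun e => ?_)
    · rw [Fc_cres]; exact hb _
    · rw [← hf]; exact hI x e
  refine a1.trans ?_
  rw [Ex_mul_left]
  refine mul_le_mul_of_nonneg_left ?_ hα0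
  refine le_of_mul_le_mul_left ?_ hl0
  rw [← Ex_mul_left]
  simp_rw [TI_Fc]
  rw [Ex_Wc_cres p J c (fun T => (T.card : ℝ))]
  refine Finset.sum_le_sum fun S _ => ?_
  refine mul_le_mul_of_nonneg_right ?_ (Wc_nonneg h0.le h1.le c S)
  exact_mod_cast Finset.card_le_card Finset.inter_subset_left

end Vale.Agent.P063
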