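import Vale.Agent.P063.Hyper

namespace Vale.Agent.P063

open Finset

lemma poincare {ι : Type*} [Fintype ι] [DecidableEq ι] {p : ℝ} (h0 : 0 < p) (h1 : p < 1)
    (f : (ι → Bool) → ℝ) (hb : ∀ x, f x = 0 ∨ f x = 1) : Ex p f * (1 - Ex p f) ≤ TI p f := by
  obtain ⟨c, rfl⟩ := exists_coef p f
  have a2 := TI_Fc p c
  have b1 : Ex p (Fc p c) = ∑ S, Wc p c S := by
    rw [← Ex_sq_Fc]
    exact Ex_congr p fun x => by rcases hb x with a | a <;> rw [a] <;> norm_num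
  have b2 : Ex p (Fc p c) ^ 2 = Wc p c ∅ := by rw [Ex_Fc]; simp [Wc]
  have b3 : ∑ S : Finset ι, Wc p c S ≤ Wc p c ∅ + ∑ S : Finset ι, (S.card : ℝ) * Wc p c S := by
    have : Wc p c ∅ = ∑ S : Finset ι, if S = ∅ then Wc p c S else 0 := by simp
    rw [this, ← Finset.sum_add_distrib]
    refine Finset.sum_le_sum fun S _ => ?_
    by_cases h : S = ∅
    · simp [h]
    · have h2 : (1 : ℝ) ≤ S.card := by
        exact_mod_cast Finset.card_pos.mpr (Finset.nonempty_iff_ne_empty.mpr h)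
      have := Wc_nonneg h0.le h1.le c S
      rw [if_neg h]; nlinarith
  have hT := TI_nonneg h0.le h1.le (Fc p c)
  have hl : p * (1 - p) ≤ 1 := by nlinarith
  have : p * (1 - p) * TI p (Fc p c) ≤ TI p (Fc p c) := by nlinarith
  nlinarith

lemma beta_facts {r : ℕ} (hr : 2 ≤ r) :
    0 ≤ (r : ℝ) / ((r : ℝ) - 1) ∧ (r : ℝ) / ((r : ℝ) - 1) ≤ 2 ∧
      (r : ℝ) / ((r : ℝ) - 1) * ((r - 1 : ℕ) : ℝ) = r := by
  have h2 : (2 : ℝ) ≤ r := by exact_mod_cast hr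
  have h3 : (0 : ℝ) < (r : ℝ) - 1 := by linarith
  refine ⟨by positivity, ?_, ?_⟩
  · rw [div_le_iff₀ h3]; linarith
  · rw [Nat.cast_sub (by omega), Nat.cast_one, div_mul_cancel₀ _ h3.ne']

lemma num1 {N r m n : ℝ} (hN : 16 * r ≤ N) (hr : 2 ≤ r) (hm0 : 0 ≤ m) (hm : m + 1 ≤ N)
    (hn : n = N ^ 16) : r + N ^ 8 ≤ n * (1 / (2 * (m + 1) ^ 2)) / 2 ∧
      16 ≤ n * (1 / (2 * (m + 1) ^ 2)) ^ 2 := by
  have hN1 : 32 ≤ N := by linarith
  have hN0 : 0 < N := by linarith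
  have h1 : (m + 1) ^ 2 ≤ N ^ 2 := pow_le_pow_left₀ (by linarith) hm 2
  have hq : 1 / (2 * N ^ 2) ≤ 1 / (2 * (m + 1) ^ 2) :=
    one_div_le_one_div_of_le (by positivity) (by linarith)
  have h6 : (32 : ℝ) ^ 6 ≤ N ^ 6 := pow_le_pow_left₀ (by norm_num) hN1 6
  have h8 : N ≤ N ^ 8 := le_self_pow₀ (by linarith) (by norm_num)
  constructor
  · calc r + N ^ 8 ≤ N ^ 8 * N ^ 6 / 4 := by nlinarith [pow_pos hN0 8]
      _ = N ^ 16 * (1 / (2 * N ^ 2)) / 2 := by field_simp; ring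
      _ ≤ _ := by rw [hn]; gcongr
  · calc (16 : ℝ) ≤ N ^ 6 * N ^ 6 / 4 := by nlinarith
      _ = N ^ 16 * (1 / (2 * N ^ 2)) ^ 2 := by field_simp; ring
      _ ≤ _ := by rw [hn]; gcongr

lemma num2 {N K m L β : ℝ} (hN : 1 ≤ N) (hK : K ≤ N) (hm0 : 0 ≤ m) (hm : m + 1 ≤ L)
    (hβ : β ≤ 2) (hL : (L / 16) ^ 4 / 24 ≤ N) :
    4 / (1 / (2 * (m + 1) ^ 2)) * (K * (N ^ 2)⁻¹ + ((N ^ 2)⁻¹) ^ 2) * L ^ β ≤ 16 * 24 * 16 ^ 4 := by
  have hN0 : 0 < N := by linarith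
  have hL1 : 1 ≤ L := by linarith
  have a1 : L ^ β ≤ L ^ 2 := by
    have := Real.rpow_le_rpow_of_exponent_le hL1 hβ
    rwa [Real.rpow_two] at this
  have a2 : 4 / (1 / (2 * (m + 1) ^ 2)) ≤ 8 * L ^ 2 := by
    have : (m + 1) ^ 2 ≤ L ^ 2 := pow_le_pow_left₀ (by linarith) hm 2
    rw [div_div_eq_mul_div, div_one]; linarith
  have a3 : K * (N ^ 2)⁻¹ + ((N ^ 2)⁻¹) ^ 2 ≤ 2 / N := by
    have b1 : K * (N ^ 2)⁻¹ ≤ 1 / N := by
      calc K * (N ^ 2)⁻¹ ≤ N * (N ^ 2)⁻¹ := by gcongr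
        _ = 1 / N := by field_simp
    have b2 : ((N ^ 2)⁻¹) ^ 2 ≤ 1 / N := by
      rw [inv_pow, ← pow_mul, ← one_div]
      exact one_div_le_one_div_of_le hN0 (le_self_pow₀ hN (by norm_num))
    calc _ ≤ 1 / N + 1 / N := add_le_add b1 b2
      _ = 2 / N := by ring
  have a4 : 0 ≤ L ^ β := Real.rpow_nonneg (by linarith) _
  calc _ ≤ 4 / (1 / (2 * (m + 1) ^ 2)) * (2 / N) * L ^ β := by gcongr
    _ ≤ 8 * L ^ 2 * (2 / N) * L ^ 2 := by gcongr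
    _ = 16 * L ^ 4 / N := by ring
    _ ≤ _ := by rw [div_le_iff₀ hN0]; nlinarith

lemma num3 {l ℓ L β r : ℝ} (hl : 0 < l) (hr : 0 ≤ r) (hℓ : 1 ≤ ℓ) (hL : 0 < L) (hβ : β ≤ 2)
    (h : ℓ ^ 2 / 2 ≤ l⁻¹) : r * l / (L / (16 * ℓ)) ^ β * L ^ β ≤ 512 * r := by
  have a0 : 0 < 16 * ℓ := by linarith
  rw [Real.div_rpow hL.le a0.le]
  have a1 : 0 < L ^ β := Real.rpow_pos_of_pos hL _
  have a2 : (16 * ℓ) ^ β ≤ (16 * ℓ) ^ 2 := by
    have := Real.rpow_le_rpow_of_exponent_le (show 1 ≤ 16 * ℓ by linarith) hβ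
    rwa [Real.rpow_two] at this
  have a3 : r * l / (L ^ β / (16 * ℓ) ^ β) * L ^ β = r * (l * (16 * ℓ) ^ β) := by
    field_simp
  rw [a3]
  have a4 : l * (16 * ℓ) ^ β ≤ 512 := by
    have b1 : l * (ℓ ^ 2 / 2) ≤ l * l⁻¹ := mul_le_mul_of_nonneg_left h hl.le
    rw [mul_inv_cancel₀ hl.ne'] at b1
    have b2 := mul_le_mul_of_nonneg_left a2 hl.le
    nlinarith
  nlinarith

lemma large_bound {n r : ℕ} (hr : 2 ≤ r) (hn : (16 * r) ^ 16 ≤ n) {p : ℝ} (h0 : 0 < p)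
    (h1 : p < 1) (f : (Edge n r → Bool) → ℝ) (hb : ∀ x, f x = 0 ∨ f x = 1)
    (hf : ∀ (σ : Equiv.Perm (Fin n)) x, f (fun e => x (edgeMap σ e)) = f x) :
    Ex p f * (1 - Ex p f) * Real.log n ^ ((r : ℝ) / ((r : ℝ) - 1)) ≤
      (16 * 24 * 16 ^ 4 + 512 * r) * TI p f := by
  obtain ⟨hβ0, hβ2, hβr⟩ := beta_facts hr
  set β := (r : ℝ) / ((r : ℝ) - 1) with hβ
  have hr' : (2 : ℝ) ≤ r := by exact_mod_cast hr
  have hn' : (16 * (r : ℝ)) ^ 16 ≤ n := by exact_mod_cast hn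
  have hn0 : (0 : ℝ) < n := lt_of_lt_of_le (by positivity) hn'
  set L := Real.log n with hL
  set N := Real.exp (L / 16) with hN
  have hN0 : 0 < N := Real.exp_pos _
  have hnN : (n : ℝ) = N ^ 16 := by
    rw [hN, ← Real.exp_nat_mul, ← Real.exp_log hn0, ← hL]
    congr 1; push_cast; ring
  have hNr : 16 * (r : ℝ) ≤ N :=
    le_of_pow_le_pow_left₀ (n := 16) (by norm_num) hN0.le (hnN ▸ hn')
  have hL2 : 2 ≤ L := by
    by_contra hc
    have a1 : N ≤ Real.exp 1 := Real.exp_le_exp.mpr (by linarith)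
    have a2 := Real.exp_one_lt_d9
    linarith
  have hl0 : 0 < p * (1 - p) := mul_pos h0 (by linarith)
  have hl4 : p * (1 - p) ≤ 1 / 4 := by nlinarith [sq_nonneg (p - 1 / 2)]
  set l := p * (1 - p) with hl
  set ℓ := Real.log l⁻¹ with hℓ
  have hel : Real.exp ℓ = l⁻¹ := Real.exp_log (inv_pos.mpr hl0)
  have hℓ1 : 1 ≤ ℓ := by
    by_contra hc
    have a1 : Real.exp ℓ ≤ Real.exp 1 := Real.exp_le_exp.mpr (by linarith)
    have a2 := Real.exp_one_lt_d9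
    have a3 : 4 ≤ l⁻¹ := by
      rw [le_inv_comm₀ (by norm_num) hl0]; linarith
    linarith
  have hx0 : 0 < L / (16 * ℓ) := by positivity
  set m := ⌊L / (16 * ℓ)⌋₊ with hm
  have hm1 : (m : ℝ) ≤ L / (16 * ℓ) := Nat.floor_le hx0.le
  have hm2 : L / (16 * ℓ) ≤ m + 1 := (Nat.lt_floor_add_one _).le
  have hm0 : (0 : ℝ) ≤ m := Nat.cast_nonneg _
  have hm3 : m * ℓ ≤ L / 16 := by
    rw [le_div_iff₀ (by positivity)] at hm1
    linarith
  have hm4 : (m : ℝ) ≤ L / 16 := by nlinarith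
  have hmN : (m : ℝ) + 1 ≤ N := by
    have := Real.add_one_le_exp (L / 16)
    linarith
  have hK : l⁻¹ ^ m ≤ N := by
    rw [← hel, ← Real.exp_nat_mul]
    exact Real.exp_le_exp.mpr hm3
  obtain ⟨c1, c2⟩ := num1 hNr hr' hm0 hmN hnN
  have hM : ((L / (16 * ℓ)) ^ β) ^ (r - 1) ≤ ((m : ℝ) + 1) ^ r := by
    rw [← Real.rpow_natCast, ← Real.rpow_mul hx0.le, hβr, Real.rpow_natCast]
    exact pow_le_pow_left₀ hx0.le hm2 r
  have key := var_bound hr h0 h1 f hb hf m (δ := (N ^ 2)⁻¹) (q := 1 / (2 * ((m : ℝ) + 1) ^ 2))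
    (t := r + N ^ 8) (M := (L / (16 * ℓ)) ^ β) (by positivity) (by positivity)
    (le_of_eq (by field_simp)) c1 c2 (le_of_eq (by field_simp; ring))
    (Real.rpow_pos_of_pos hx0 _) hM
  have d1 := num2 (N := N) (K := l⁻¹ ^ m) (m := m) (L := L) (β := β) (by linarith) hK hm0
    (by linarith) hβ2 (by
      have := Real.pow_div_factorial_le_exp (L / 16) (by linarith) 4
      simpa [Nat.factorial] using this)
  have d2 := num3 (l := l) (ℓ := ℓ) (L := L) (β := β) (r := r) hl0 (by linarith) hℓ1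
    (by linarith) hβ2 (by
      have := Real.pow_div_factorial_le_exp ℓ (by linarith) 2
      rw [hel] at this
      simpa [Nat.factorial] using this)
  have hT := TI_nonneg h0.le h1.le f
  have hLb : 0 ≤ L ^ β := Real.rpow_nonneg (by linarith) _
  calc _ ≤ _ := mul_le_mul_of_nonneg_right key hLb
    _ = (4 / (1 / (2 * ((m : ℝ) + 1) ^ 2)) * (l⁻¹ ^ m * (N ^ 2)⁻¹ + ((N ^ 2)⁻¹) ^ 2) * L ^ β +
          r * l / (L / (16 * ℓ)) ^ β * L ^ β) * TI p f := by ring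
    _ ≤ _ := mul_le_mul_of_nonneg_right (add_le_add d1 d2) hT

theorem influence_bound {r : ℕ} (hr : 2 ≤ r) : ∃ C : ℝ, 0 < C ∧ ∀ n : ℕ, r ≤ n → ∀ p : ℝ,
    0 < p → p < 1 → ∀ f : (Edge n r → Bool) → ℝ, (∀ x, f x = 0 ∨ f x = 1) →
    (∀ (σ : Equiv.Perm (Fin n)) x, f (fun e => x (edgeMap σ e)) = f x) →
    Ex p f * (1 - Ex p f) * Real.log n ^ ((r : ℝ) / ((r : ℝ) - 1)) ≤ C * TI p f := by
  obtain ⟨hβ0, hβ2, hβr⟩ := beta_facts hr
  set C1 := Real.log (((16 * r) ^ 16 : ℕ) : ℝ) ^ ((r : ℝ) / ((r : ℝ) - 1)) with hC1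
  have hC10 : 0 ≤ C1 := Real.rpow_nonneg (Real.log_natCast_nonneg _) _
  refine ⟨16 * 24 * 16 ^ 4 + 512 * r + C1, by positivity, fun n hn p h0 h1 f hb hf => ?_⟩
  have hT := TI_nonneg h0.le h1.le f
  by_cases hc : (16 * r) ^ 16 ≤ n
  · have := large_bound hr hc h0 h1 f hb hf
    nlinarith [mul_nonneg hC10 hT]
  · have a1 := poincare h0 h1 f hb
    have hn0 : (0 : ℝ) < n := by exact_mod_cast (by omega : 0 < n)
    have a2 : Real.log n ^ ((r : ℝ) / ((r : ℝ) - 1)) ≤ C1 := by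
      refine Real.rpow_le_rpow (Real.log_natCast_nonneg _) (Real.log_le_log hn0 ?_) hβ0
      exact_mod_cast (not_le.mp hc).le
    have a3 : 0 ≤ Real.log n ^ ((r : ℝ) / ((r : ℝ) - 1)) :=
      Real.rpow_nonneg (Real.log_natCast_nonneg _) _
    have a4 : (0 : ℝ) ≤ (16 * 24 * 16 ^ 4 + 512 * r) * TI p f := by positivity
    calc _ ≤ TI p f * Real.log n ^ ((r : ℝ) / ((r : ℝ) - 1)) := mul_le_mul_of_nonneg_right a1 a3
      _ ≤ TI p f * C1 := mul_le_mul_of_nonneg_left a2 hT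
      _ ≤ _ := by nlinarith

/-- Russo's formula -/
lemma russo {ι : Type*} [Fintype ι] [DecidableEq ι] (f : (ι → Bool) → ℝ) (p : ℝ) :
    HasDerivAt (fun s => Ex s f) (∑ e, Ex p (Dd e f)) p := by
  have h1 : ∀ b : Bool, HasDerivAt (fun s => w1 s b) (if b = true then 1 else -1) p := by
    intro b
    cases b
    · simpa using (hasDerivAt_id p).const_sub 1
    · simpa using hasDerivAt_id' p
  have h2 : ∀ x : ι → Bool, HasDerivAt (fun s => wt s x * f x)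
      ((∑ e, wt' p e x * (if x e = true then 1 else -1)) * f x) p := by
    intro x
    have := HasDerivAt.fun_finsetProd (u := (univ : Finset ι)) (f := fun i s => w1 s (x i))
      (fun i _ => h1 (x i))
    exact this.mul_const (f x)
  have h3 := HasDerivAt.fun_sum (u := (univ : Finset (ι → Bool))) (fun x _ => h2 x)
  refine h3.congr_deriv (Eq.symm ?_)
  simp_rw [Finset.sum_mul]
  rw [Finset.sum_comm]
  refine Finset.sum_congr rfl fun e _ => ?_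
  have a1 := sum_split e (fun x => wt p x * Dd e f x)
  have a2 := sum_split e (fun x => wt' p e x * (if x e = true then 1 else -1) * f x)
  unfold Ex
  refine mul_left_cancel₀ (two_ne_zero (α := ℝ)) ?_
  rw [a1, a2]
  refine Finset.sum_congr rfl fun x _ => ?_
  simp only [wt_eq p e, wt'_update, Function.update_self, Function.update_idem, w1_true, w1_false,
    Dd]
  simp
  ring

end Vale.Agent.P063
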