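import Vale.Agent.P063.Main

namespace Vale.Agent.P063

open Finset

variable {n r : ℕ}

/-- real indicator of a property -/
noncomputable def indP (P : Set (Edge n r → Bool)) (x : Edge n r → Bool) : ℝ :=
  P.indicator (fun _ => 1) x

lemma indP_bool (P : Set (Edge n r → Bool)) (x : Edge n r → Bool) :
    indP P x = 0 ∨ indP P x = 1 := by
  unfold indP
  by_cases h : x ∈ P
  · right; simp [h]
  · left; simp [h]

lemma mu_eq (P : Set (Edge n r → Bool)) (p : ℝ) : mu P p = Ex p (indP P) := by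
  unfold mu Ex indP
  refine Finset.sum_congr rfl fun x _ => ?_
  by_cases h : x ∈ P
  · simp [h, wt, w1]
  · simp [h]

lemma indP_inv {P : Set (Edge n r → Bool)} (hP : IsIncProperty P) (σ : Equiv.Perm (Fin n))
    (x : Edge n r → Bool) : indP P (fun e => x (edgeMap σ e)) = indP P x := by
  have h : (fun e => x (edgeMap σ e)) ∈ P ↔ x ∈ P := by
    refine ⟨fun h => ?_, hP.1 σ x⟩
    have := hP.1 σ.symm _ h
    convert this using 1
    funext e
    congr 1
    apply Subtype.ext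
    ext w
    rw [mem_edgeMap, mem_edgeMap]
    simp
  unfold indP
  by_cases hx : x ∈ P
  · rw [Set.indicator_of_mem hx, Set.indicator_of_mem (h.mpr hx)]
  · rw [Set.indicator_of_notMem hx, Set.indicator_of_notMem (fun h' => hx (h.mp h'))]

lemma mu_deriv {P : Set (Edge n r → Bool)} (hP : IsIncProperty P) (p : ℝ) :
    HasDerivAt (mu P) (TI p (indP P)) p := by
  have h := russo (indP P) p
  have e1 : mu P = fun s => Ex s (indP P) := funext (mu_eq P)
  rw [e1]
  refine h.congr_deriv ?_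
  unfold TI Inf
  refine Finset.sum_congr rfl fun e _ => Ex_congr p fun x => ?_
  unfold Dd indP
  by_cases h0 : Function.update x e false ∈ P
  · have h1 : Function.update x e true ∈ P := by
      refine hP.2.1 _ _ h0 fun i hi => ?_
      by_cases hie : i = e
      · subst hie; simp
      · rwa [Function.update_of_ne hie] at hi ⊢
    simp [h0, h1]
  · by_cases h1 : Function.update x e true ∈ P <;> simp [h0, h1]

lemma mu_zero {P : Set (Edge n r → Bool)} (hP : IsIncProperty P) : mu P 0 = 0 := by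
  rw [mu_eq]
  unfold Ex
  refine Finset.sum_eq_zero fun x _ => ?_
  by_cases h : ∃ e, x e = true
  · obtain ⟨e, he⟩ := h
    rw [wt_eq 0 e, he]; simp
  · have : x ∉ P := fun hx => hP.2.2.2 (Set.eq_univ_of_forall fun y =>
      hP.2.1 x y hx fun e he => absurd ⟨e, he⟩ h)
    simp [indP, this]

lemma mu_one {P : Set (Edge n r → Bool)} (hP : IsIncProperty P) : mu P 1 = 1 := by
  have h1 : Ex 1 (indP P) = Ex 1 (fun _ : Edge n r → Bool => (1 : ℝ)) := by
    unfold Ex
    refine Finset.sum_congr rfl fun x _ => ?_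
    by_cases h : ∃ e, x e = false
    · obtain ⟨e, he⟩ := h
      rw [wt_eq 1 e, he]; simp
    · obtain ⟨y, hy⟩ := hP.2.2.1
      have : x ∈ P := hP.2.1 y x hy fun e _ => by
        by_contra hc
        exact h ⟨e, by simpa using hc⟩
      simp [indP, this]
  rw [mu_eq, h1, Ex_one]

lemma mu_cont {P : Set (Edge n r → Bool)} (hP : IsIncProperty P) : Continuous (mu P) :=
  continuous_iff_continuousAt.mpr fun p => (mu_deriv hP p).continuousAt

lemma mu_mono {P : Set (Edge n r → Bool)} (hP : IsIncProperty P) :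
    MonotoneOn (mu P) (Set.Icc 0 1) := by
  refine monotoneOn_of_deriv_nonneg (convex_Icc 0 1) (mu_cont hP).continuousOn
    (fun p _ => (mu_deriv hP p).differentiableAt.differentiableWithinAt) fun p hp => ?_
  have hp' := interior_subset hp
  rw [(mu_deriv hP p).deriv]
  exact TI_nonneg hp'.1 hp'.2 _

lemma thr_spec {P : Set (Edge n r → Bool)} (hP : IsIncProperty P) {a : ℝ} (h0 : 0 ≤ a)
    (h1 : a ≤ 1) : thr P a ∈ Set.Icc (0 : ℝ) 1 ∧ mu P (thr P a) = a := by
  have hcl : IsClosed {p : ℝ | p ∈ Set.Icc (0 : ℝ) 1 ∧ a ≤ mu P p} :=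
    isClosed_Icc.inter (isClosed_le continuous_const (mu_cont hP))
  have hbd : BddBelow {p : ℝ | p ∈ Set.Icc (0 : ℝ) 1 ∧ a ≤ mu P p} := ⟨0, fun p hp => hp.1.1⟩
  have hne : {p : ℝ | p ∈ Set.Icc (0 : ℝ) 1 ∧ a ≤ mu P p}.Nonempty :=
    ⟨1, ⟨zero_le_one, le_rfl⟩, by rw [mu_one hP]; exact h1⟩
  have hmem : thr P a ∈ {p : ℝ | p ∈ Set.Icc (0 : ℝ) 1 ∧ a ≤ mu P p} := hcl.csInf_mem hne hbd
  refine ⟨hmem.1, ?_⟩
  obtain ⟨s, hs, hsa⟩ := intermediate_value_Icc hmem.1.1 (mu_cont hP).continuousOn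
    (show a ∈ Set.Icc (mu P 0) (mu P (thr P a)) from ⟨by rw [mu_zero hP]; exact h0, hmem.2⟩)
  have : thr P a ≤ s := csInf_le hbd ⟨⟨hs.1, hs.2.trans hmem.1.2⟩, hsa.ge⟩
  rw [le_antisymm this hs.2, hsa]

lemma width_le {P : Set (Edge n r → Bool)} (hP : IsIncProperty P) {k ε : ℝ} (hk : 0 < k)
    (hε0 : 0 < ε) (hε1 : ε < 1 / 2)
    (hI : ∀ p, 0 < p → p < 1 → mu P p * (1 - mu P p) * k ≤ TI p (indP P)) :
    width P ε ≤ 2 * Real.log ((1 - ε) / ε) / k := by
  obtain ⟨ha, hμa⟩ := thr_spec hP (a := ε) hε0.le (by linarith)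
  obtain ⟨hb, hμb⟩ := thr_spec hP (a := 1 - ε) (by linarith) (by linarith)
  unfold width
  set a := thr P ε
  set b := thr P (1 - ε)
  have hlog : 0 ≤ Real.log ((1 - ε) / ε) :=
    Real.log_nonneg (by rw [le_div_iff₀ hε0]; linarith)
  by_cases hab : b ≤ a
  · have : 0 ≤ 2 * Real.log ((1 - ε) / ε) / k := by positivity
    linarith
  push Not at hab
  have hin : ∀ p ∈ Set.Icc a b, ε ≤ mu P p ∧ mu P p ≤ 1 - ε := by
    intro p hp
    have hp' : p ∈ Set.Icc (0 : ℝ) 1 := ⟨ha.1.trans hp.1, hp.2.trans hb.2⟩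
    exact ⟨hμa ▸ mu_mono hP ha hp' hp.1, hμb ▸ mu_mono hP hp' hb hp.2⟩
  have hder : ∀ p ∈ Set.Icc a b, HasDerivAt (fun s => Real.log (mu P s) - Real.log (1 - mu P s))
      (TI p (indP P) / mu P p - (-TI p (indP P)) / (1 - mu P p)) p := by
    intro p hp
    obtain ⟨c1, c2⟩ := hin p hp
    exact ((mu_deriv hP p).log (by linarith)).sub
      (((mu_deriv hP p).const_sub 1).log (by linarith))
  obtain ⟨c, hc, hceq⟩ := exists_hasDerivAt_eq_slope
    (fun s => Real.log (mu P s) - Real.log (1 - mu P s))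
    (fun p => TI p (indP P) / mu P p - (-TI p (indP P)) / (1 - mu P p)) hab
    (fun p hp => (hder p hp).continuousAt.continuousWithinAt)
    (fun p hp => hder p (Set.Ioo_subset_Icc_self hp))
  obtain ⟨c1, c2⟩ := hin c (Set.Ioo_subset_Icc_self hc)
  have h1 := hI c (lt_of_le_of_lt ha.1 hc.1) (lt_of_lt_of_le hc.2 hb.2)
  have m0 : 0 < mu P c := by linarith
  have m1 : 0 < 1 - mu P c := by linarith
  have h2 : k ≤ TI c (indP P) / mu P c - (-TI c (indP P)) / (1 - mu P c) := by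
    have : TI c (indP P) / mu P c - (-TI c (indP P)) / (1 - mu P c) =
        TI c (indP P) / (mu P c * (1 - mu P c)) := by
      field_simp; ring
    rw [this, le_div_iff₀ (mul_pos m0 m1)]
    linarith
  rw [hceq, hμa, hμb, le_div_iff₀ (by linarith)] at h2
  rw [le_div_iff₀ hk, Real.log_div (by linarith) hε0.ne']
  have e1 : 1 - (1 - ε) = ε := by ring
  rw [e1] at h2
  linarith

theorem width_bound {r : ℕ} (hr : 2 ≤ r) : ∃ C : ℝ, 0 < C ∧ ∀ ε : ℝ, 0 < ε → ε < 1 / 2 →
    ∀ n : ℕ, r ≤ n → ∀ P : Set (Edge n r → Bool), IsIncProperty P →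
      width P ε ≤ C * Real.log ((1 - ε) / ε) * Real.log n ^ (-((r : ℝ) / ((r : ℝ) - 1))) := by
  obtain ⟨C, hC, h⟩ := influence_bound hr
  refine ⟨2 * C, by positivity, fun ε hε0 hε1 n hn P hP => ?_⟩
  have hL : 0 < Real.log n := Real.log_pos (by exact_mod_cast (by omega : 1 < n))
  have hLb : 0 < Real.log n ^ ((r : ℝ) / ((r : ℝ) - 1)) := Real.rpow_pos_of_pos hL _
  have := width_le hP (k := Real.log n ^ ((r : ℝ) / ((r : ℝ) - 1)) / C) (by positivity) hε0 hε1
    (fun p h0 h1 => by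
      have h2 := h n hn p h0 h1 (indP P) (indP_bool P) (indP_inv hP)
      rw [mu_eq, ← mul_div_assoc, div_le_iff₀ hC]
      linarith)
  refine this.trans (le_of_eq ?_)
  rw [Real.rpow_neg hL.le]
  field_simp

end Vale.Agent.P063
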